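import Vale.Agent.H6.AB.ADefs

namespace Vale.Agent.H6.AB

open MeasureTheory Set
open scoped ContDiff

section A1

theorem tau_ge (s : ℝ) : -1 ≤ tau s := le_max_right _ _

theorem tau_abs (s : ℝ) : |tau s| ≤ |s| := by
  unfold tau
  rcases le_total (-1) s with h | h
  · rw [max_eq_left h]
  · rw [max_eq_right h, abs_neg, abs_one, abs_of_nonpos (by linarith)]
    linarith

theorem tau_continuous : Continuous tau := continuous_id.max continuous_const

theorem den_pos (s : ℝ) : 6 ≤ 8 + 2 * tau s := by linarith [tau_ge s]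

theorem ba_nonneg (s x : ℝ) : 0 ≤ ba s x := le_max_left _ _

theorem top_nonneg (s : ℝ) : 0 ≤ 9 / (8 + 2 * tau s) := by
  have := den_pos s
  positivity

theorem ba_le (s x : ℝ) : ba s x ≤ 9 / (8 + 2 * tau s) :=
  max_le (top_nonneg s) (min_le_right _ _)

theorem ba_le' (s x : ℝ) : ba s x ≤ 3 / 2 := by
  refine (ba_le s x).trans ?_
  have := den_pos s
  rw [div_le_iff₀ (by linarith)]
  linarith

theorem bb_nonneg (s x z : ℝ) : 0 ≤ bb s x z := le_max_left _ _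

theorem bb_le (s x z : ℝ) : bb s x z ≤ 5 / 9 * ba s x :=
  max_le (by linarith [ba_nonneg s x]) (min_le_right _ _)

theorem bb_le' (s x z : ℝ) : bb s x z ≤ 1 := by
  linarith [bb_le s x z, ba_le' s x]

theorem tau_mul_ba (s x : ℝ) : |tau s * ba s x| ≤ 9 / 2 := by
  have h1 := ba_nonneg s x
  have h2 := ba_le' s x
  have h3 := ba_le s x
  have h4 := tau_ge s
  have h5 := den_pos s
  rw [abs_le]
  constructor
  · nlinarith
  · rcases le_total (tau s) 0 with h | h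
    · nlinarith
    · calc tau s * ba s x ≤ tau s * (9 / (8 + 2 * tau s)) := mul_le_mul_of_nonneg_left h3 h
        _ ≤ 9 / 2 := by
          rw [← mul_div_assoc, div_le_iff₀ (by linarith)]
          linarith

theorem tau_mul_bb (s x z : ℝ) : |tau s * bb s x z| ≤ 5 / 2 := by
  have h1 := tau_mul_ba s x
  have h2 := bb_le s x z
  have h3 := bb_nonneg s x z
  rw [abs_mul, abs_of_nonneg h3]
  rw [abs_mul, abs_of_nonneg (ba_nonneg s x)] at h1
  calc |tau s| * bb s x z ≤ |tau s| * (5 / 9 * ba s x) :=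
        mul_le_mul_of_nonneg_left h2 (abs_nonneg _)
    _ ≤ 5 / 2 := by nlinarith

theorem D_ge (p : ℝ) (hp : 9 ≤ p) (s x : ℝ) : 6 ≤ p + 2 * tau s * ba s x := by
  have h1 := ba_nonneg s x
  have h2 := ba_le' s x
  have h4 := tau_ge s
  rcases le_total (tau s) 0 with h | h
  · nlinarith
  · have := mul_nonneg h h1
    nlinarith

theorem ba_lip (s x x' : ℝ) : |ba s x - ba s x'| ≤ |x - x'| := by
  unfold ba
  refine (abs_max_sub_max_le_max _ _ _ _).trans ?_
  rw [sub_self, abs_zero, max_eq_right (abs_nonneg _)]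
  refine (abs_min_sub_min_le_max _ _ _ _).trans ?_
  rw [sub_self, abs_zero, max_eq_left (abs_nonneg _)]

theorem bb_lip (s x z x' z' : ℝ) : |bb s x z - bb s x' z'| ≤ |z - z'| + |x - x'| := by
  unfold bb
  refine (abs_max_sub_max_le_max _ _ _ _).trans ?_
  rw [sub_self, abs_zero, max_eq_right (abs_nonneg _)]
  refine (abs_min_sub_min_le_max _ _ _ _).trans ?_
  refine max_le (by linarith [abs_nonneg (x - x')]) ?_
  rw [← mul_sub, abs_mul, abs_of_nonneg (by norm_num : (0 : ℝ) ≤ 5 / 9)]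
  have := ba_lip s x x'
  linarith [abs_nonneg (z - z'), abs_nonneg (x - x'), abs_nonneg (ba s x - ba s x')]

theorem ba_continuous : Continuous fun q : ℝ × ℝ × ℝ => ba q.1 q.2.1 := by
  unfold ba
  refine continuous_const.max ((continuous_fst.comp continuous_snd).min ?_)
  refine Continuous.div continuous_const ?_ fun q => ?_
  · exact continuous_const.add (continuous_const.mul (tau_continuous.comp continuous_fst))
  · have := den_pos q.1
    linarith

theorem bb_continuous : Continuous fun q : ℝ × ℝ × ℝ => bb q.1 q.2.1 q.2.2 := by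
  unfold bb
  exact continuous_const.max ((continuous_snd.comp continuous_snd).min
    (continuous_const.mul ba_continuous))

theorem mul_bd {x y X Y : ℝ} (h1 : |x| ≤ X) (h2 : |y| ≤ Y) : |x * y| ≤ X * Y := by
  rw [abs_mul]
  exact mul_le_mul h1 h2 (abs_nonneg _) ((abs_nonneg _).trans h1)

theorem add_bd {x y X Y : ℝ} (h1 : |x| ≤ X) (h2 : |y| ≤ Y) : |x + y| ≤ X + Y :=
  (abs_add_le _ _).trans (add_le_add h1 h2)

theorem sub_bd {x y X Y : ℝ} (h1 : |x| ≤ X) (h2 : |y| ≤ Y) : |x - y| ≤ X + Y :=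
  (abs_sub _ _).trans (add_le_add h1 h2)

theorem div_bd {x D X : ℝ} (h1 : |x| ≤ X) (h2 : 6 ≤ D) : |x / D| ≤ X / 6 := by
  rw [abs_div, abs_of_pos (by linarith : (0 : ℝ) < D)]
  exact div_le_div₀ ((abs_nonneg _).trans h1) h1 (by norm_num) h2

theorem nn_bd {x X : ℝ} (h1 : 0 ≤ x) (h2 : x ≤ X) : |x| ≤ X := by rwa [abs_of_nonneg h1]

/-- numerator -/
theorem num_bd (p t a b : ℝ) (hp : 9 ≤ p) (ha : |a| ≤ 3 / 2) (hb : |b| ≤ 1)
    (hta : |t * a| ≤ 9 / 2) (htb : |t * b| ≤ 5 / 2) :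
    |(2 * p + 3) * a + t * ((4 * p + 9) * a * b + 2 * a ^ 2 - p ^ 2 * b ^ 2) +
      t ^ 2 * (6 * a * b ^ 2 + 2 * a ^ 2 * b)| ≤ 50 * p ^ 2 := by
  have e : (2 * p + 3) * a + t * ((4 * p + 9) * a * b + 2 * a ^ 2 - p ^ 2 * b ^ 2) +
      t ^ 2 * (6 * a * b ^ 2 + 2 * a ^ 2 * b) =
      (2 * p + 3) * a + (4 * p + 9) * ((t * a) * b) + 2 * ((t * a) * a) - p ^ 2 * ((t * b) * b) +
      6 * (((t * a) * (t * b)) * b) + 2 * (((t * a) * (t * a)) * b) := by ring
  rw [e]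
  have b1 := mul_bd (nn_bd (by linarith : 0 ≤ 2 * p + 3) le_rfl) ha
  have b2 := mul_bd (nn_bd (by linarith : 0 ≤ 4 * p + 9) le_rfl) (mul_bd hta hb)
  have b3 := mul_bd (nn_bd (by norm_num : (0 : ℝ) ≤ 2) le_rfl) (mul_bd hta ha)
  have b4 := mul_bd (nn_bd (by positivity : 0 ≤ p ^ 2) le_rfl) (mul_bd htb hb)
  have b5 := mul_bd (nn_bd (by norm_num : (0 : ℝ) ≤ 6) le_rfl) (mul_bd (mul_bd hta htb) hb)
  have b6 := mul_bd (nn_bd (by norm_num : (0 : ℝ) ≤ 2) le_rfl) (mul_bd (mul_bd hta hta) hb)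
  refine (add_bd (add_bd (sub_bd (add_bd (add_bd b1 b2) b3) b4) b5) b6).trans ?_
  nlinarith

theorem Nf_bd (p t a b : ℝ) (hp : 9 ≤ p) (ha : |a| ≤ 3 / 2) (hb : |b| ≤ 1)
    (hta : |t * a| ≤ 9 / 2) (htb : |t * b| ≤ 5 / 2) (hD : 6 ≤ p + 2 * t * a) :
    |Nf p t a b| ≤ 10 * p ^ 2 := by
  unfold Nf
  refine (div_bd (num_bd p t a b hp ha hb hta htb) hD).trans ?_
  nlinarith

theorem Nf_lip (p t a b a' b' : ℝ) (hp : 9 ≤ p) (ha : |a| ≤ 3 / 2) (hb : |b| ≤ 1)
    (_hta : |t * a| ≤ 9 / 2) (htb : |t * b| ≤ 5 / 2) (hD : 6 ≤ p + 2 * t * a)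
    (ha' : |a'| ≤ 3 / 2) (hb' : |b'| ≤ 1)
    (hta' : |t * a'| ≤ 9 / 2) (htb' : |t * b'| ≤ 5 / 2) (hD' : 6 ≤ p + 2 * t * a') :
    |Nf p t a b - Nf p t a' b'| ≤
      10 * p ^ 2 * ((1 + |t|) * |a - a'|) + 10 * p ^ 2 * (|t| * |b - b'|) := by
  have hN' := Nf_bd p t a' b' hp ha' hb' hta' htb' hD'
  have e : Nf p t a b - Nf p t a' b' =
      ((2 * p + 3) / (p + 2 * t * a)) * (a - a') +
      (((4 * p + 9) * b + 2 * (a + a') + 6 * ((t * b) * b) + 2 * ((a + a') * (t * b)) -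
        2 * Nf p t a' b') / (p + 2 * t * a)) * (t * (a - a')) +
      (((4 * p + 9) * a' - p ^ 2 * (b + b') + 6 * ((t * a') * (b + b')) + 2 * ((t * a') * a')) /
        (p + 2 * t * a)) * (t * (b - b')) := by
    have hD0 : p + 2 * t * a ≠ 0 := by linarith
    have hD0' : p + 2 * t * a' ≠ 0 := by linarith
    unfold Nf
    obtain ⟨D, hDe⟩ : ∃ D, D = p + 2 * t * a := ⟨_, rfl⟩
    obtain ⟨D', hDe'⟩ : ∃ D', D' = p + 2 * t * a' := ⟨_, rfl⟩
    rw [← hDe] at hD0 ⊢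
    rw [← hDe'] at hD0' ⊢
    field_simp
    rw [hDe, hDe']
    ring
  rw [e]
  have c1 : |(2 * p + 3) / (p + 2 * t * a)| ≤ 10 * p ^ 2 := by
    refine (div_bd (nn_bd (by linarith : 0 ≤ 2 * p + 3) le_rfl) hD).trans ?_
    nlinarith
  have two : |(2 : ℝ)| ≤ 2 := nn_bd (by norm_num) le_rfl
  have six : |(6 : ℝ)| ≤ 6 := nn_bd (by norm_num) le_rfl
  have hpp : |(4 * p + 9)| ≤ 4 * p + 9 := nn_bd (by linarith) le_rfl
  have c2 : |((4 * p + 9) * b + 2 * (a + a') + 6 * ((t * b) * b) + 2 * ((a + a') * (t * b)) -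
        2 * Nf p t a' b') / (p + 2 * t * a)| ≤ 10 * p ^ 2 := by
    refine (div_bd (sub_bd (add_bd (add_bd (add_bd (mul_bd hpp hb) (mul_bd two (add_bd ha ha')))
      (mul_bd six (mul_bd htb hb))) (mul_bd two (mul_bd (add_bd ha ha') htb)))
      (mul_bd two hN')) hD).trans ?_
    nlinarith
  have c3 : |((4 * p + 9) * a' - p ^ 2 * (b + b') + 6 * ((t * a') * (b + b')) +
      2 * ((t * a') * a')) / (p + 2 * t * a)| ≤ 10 * p ^ 2 := by
    refine (div_bd (add_bd (add_bd (sub_bd (mul_bd hpp ha') (mul_bd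
      (nn_bd (by positivity : 0 ≤ p ^ 2) le_rfl) (add_bd hb hb')))
      (mul_bd six (mul_bd hta' (add_bd hb hb')))) (mul_bd two (mul_bd hta' ha'))) hD).trans ?_
    nlinarith
  have e1 : |t * (a - a')| ≤ |t| * |a - a'| := (abs_mul _ _).le
  have e2 : |t * (b - b')| ≤ |t| * |b - b'| := (abs_mul _ _).le
  refine (add_bd (add_bd (mul_bd c1 (le_refl |a - a'|)) (mul_bd c2 e1)) (mul_bd c3 e2)).trans ?_
  apply le_of_eq
  ring

/-- Row A1: bounds for the clipped nonlinearities. -/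
theorem clip_bounds (p : ℕ) (hp : 9 ≤ p) :
    (Continuous fun q : ℝ × ℝ × ℝ => Mc q.1 q.2.1 q.2.2) ∧
    (Continuous fun q : ℝ × ℝ × ℝ => Nc p q.1 q.2.1 q.2.2) ∧
    ∃ C : ℝ, (∀ s x z, |Mc s x z| ≤ C) ∧ (∀ s x z, |Nc p s x z| ≤ C) ∧
    (∀ s x z x' z', |Mc s x z - Mc s x' z'| ≤ C * (|x - x'| + |z - z'|)) ∧
    (∀ s x z x' z', |Nc p s x z - Nc p s x' z'| ≤
      C * (1 + |s|) * |x - x'| + C * |s| * |z - z'|) := by
  have hp' : (9 : ℝ) ≤ p := by exact_mod_cast hp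
  have ha := fun s x => nn_bd (ba_nonneg s x) (ba_le' s x)
  have hb := fun s x z => nn_bd (bb_nonneg s x z) (bb_le' s x z)
  refine ⟨?_, ?_, 20 * (p : ℝ) ^ 2, ?_, ?_, ?_, ?_⟩
  · unfold Mc
    exact (ba_continuous.mul (bb_continuous.sub ba_continuous)).div_const 2
  · unfold Nc Nf
    have h1 := ba_continuous
    have h2 := bb_continuous
    have h3 : Continuous fun q : ℝ × ℝ × ℝ => tau q.1 := tau_continuous.comp continuous_fst
    refine Continuous.div (by fun_prop) (by fun_prop) fun q => ?_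
    have := D_ge p hp' q.1 q.2.1
    linarith
  · intro s x z
    unfold Mc
    have h1 := mul_bd (ha s x) (sub_bd (hb s x z) (ha s x))
    rw [abs_div, abs_two]
    nlinarith
  · intro s x z
    have := Nf_bd p (tau s) (ba s x) (bb s x z) hp' (ha s x) (hb s x z) (tau_mul_ba s x)
      (tau_mul_bb s x z) (D_ge p hp' s x)
    unfold Nc
    nlinarith
  · intro s x z x' z'
    unfold Mc
    have e : ba s x * (bb s x z - ba s x) / 2 - ba s x' * (bb s x' z' - ba s x') / 2 =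
        ((bb s x z - ba s x - ba s x') / 2) * (ba s x - ba s x') +
          (ba s x' / 2) * (bb s x z - bb s x' z') := by ring
    rw [e]
    have h1 : |(bb s x z - ba s x - ba s x') / 2| ≤ 2 := by
      rw [abs_div, abs_two]
      have := sub_bd (sub_bd (hb s x z) (ha s x)) (ha s x')
      linarith
    have h2 : |ba s x' / 2| ≤ 1 := by
      rw [abs_div, abs_two]
      linarith [ha s x']
    have h3 := add_bd (mul_bd h1 (ba_lip s x x')) (mul_bd h2 (bb_lip s x z x' z'))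
    refine h3.trans ?_
    have h5 : 0 ≤ |x - x'| := abs_nonneg _
    have h6 : 0 ≤ |z - z'| := abs_nonneg _
    have h7 : (3 : ℝ) ≤ 20 * (p : ℝ) ^ 2 := by nlinarith
    calc 2 * |x - x'| + 1 * (|z - z'| + |x - x'|) ≤ 3 * (|x - x'| + |z - z'|) := by linarith
      _ ≤ 20 * (p : ℝ) ^ 2 * (|x - x'| + |z - z'|) :=
        mul_le_mul_of_nonneg_right h7 (by linarith)
  · intro s x z x' z'
    unfold Nc
    refine (Nf_lip p (tau s) (ba s x) (bb s x z) (ba s x') (bb s x' z') hp' (ha s x) (hb s x z)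
      (tau_mul_ba s x) (tau_mul_bb s x z) (D_ge p hp' s x) (ha s x') (hb s x' z')
      (tau_mul_ba s x') (tau_mul_bb s x' z') (D_ge p hp' s x')).trans ?_
    have h1 := ba_lip s x x'
    have h2 := bb_lip s x z x' z'
    have h3 := tau_abs s
    have h4 : 0 ≤ |tau s| := abs_nonneg _
    have h5 : (1 + |tau s|) * |ba s x - ba s x'| ≤ (1 + |s|) * |x - x'| :=
      mul_le_mul (by linarith) h1 (abs_nonneg _) (by positivity)
    have h6 : |tau s| * |bb s x z - bb s x' z'| ≤ |s| * (|z - z'| + |x - x'|) :=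
      mul_le_mul h3 h2 (abs_nonneg _) (abs_nonneg _)
    have h7 : 0 ≤ (p : ℝ) ^ 2 := by positivity
    calc 10 * (p : ℝ) ^ 2 * ((1 + |tau s|) * |ba s x - ba s x'|) +
          10 * (p : ℝ) ^ 2 * (|tau s| * |bb s x z - bb s x' z'|)
        ≤ 10 * (p : ℝ) ^ 2 * ((1 + |s|) * |x - x'|) +
          10 * (p : ℝ) ^ 2 * (|s| * (|z - z'| + |x - x'|)) := by gcongr
      _ ≤ _ := by
        have h8 : 0 ≤ (p : ℝ) ^ 2 * |x - x'| := by positivity
        have h9 : 0 ≤ (p : ℝ) ^ 2 * (|s| * |z - z'|) := by positivity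
        have h10 : 0 ≤ (p : ℝ) ^ 2 * (|s| * |x - x'|) := by positivity
        nlinarith

end A1

end Vale.Agent.H6.AB
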