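import Vale.Agent.H6.AB.T0

/-!
P252, row A2: the cone `0 ≤ ζ ≤ 5/9 ξ` is invariant.
-/

namespace Vale.Agent.H6.AB

open MeasureTheory Set
open scoped ContDiff

namespace RowA2

/-- A barrier lemma. -/
theorem barrier (g g' : ℝ → ℝ) (hc : Continuous g) (hg : ∀ s, 0 < s → HasDerivAt g (g' s) s)
    (h0 : g 0 ≤ 0) (h : ∀ s, 0 < s → 0 < g s → g' s ≤ 0) : ∀ s, 0 ≤ s → g s ≤ 0 := by
  intro s1 hs1
  by_contra hlt
  push Not at hlt
  have hs1' : 0 < s1 := by
    rcases hs1.lt_or_eq with h | h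
    · exact h
    · rw [← h] at hlt; linarith
  set S : Set ℝ := {s | s ∈ Icc 0 s1 ∧ g s ≤ 0} with hS
  have hSc : IsClosed S := isClosed_Icc.inter (isClosed_le hc continuous_const)
  have hSne : S.Nonempty := ⟨0, ⟨le_rfl, hs1⟩, h0⟩
  have hSb : BddAbove S := ⟨s1, fun s hs => hs.1.2⟩
  have hs0 : sSup S ∈ S := hSc.csSup_mem hSne hSb
  set s0 := sSup S with hs0d
  have hs01 : s0 < s1 := by
    rcases hs0.1.2.lt_or_eq with h | h
    · exact h
    · have := hs0.2
      rw [h] at this; linarith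
  have hpos : ∀ s ∈ Ioc s0 s1, 0 < g s := by
    intro s hs
    by_contra hle
    push Not at hle
    have : s ∈ S := ⟨⟨hs0.1.1.trans hs.1.le, hs.2⟩, hle⟩
    exact absurd (le_csSup hSb this) (not_le.2 hs.1)
  have hanti : AntitoneOn g (Icc s0 s1) := by
    refine antitoneOn_of_deriv_nonpos (convex_Icc _ _) hc.continuousOn ?_ ?_
    · intro s hs
      rw [interior_Icc] at hs
      exact (hg s (hs0.1.1.trans_lt hs.1)).differentiableAt.differentiableWithinAt
    · intro s hs
      rw [interior_Icc] at hs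
      rw [(hg s (hs0.1.1.trans_lt hs.1)).deriv]
      exact h s (hs0.1.1.trans_lt hs.1) (hpos s ⟨hs.1, hs.2.le⟩)
  have := hanti (left_mem_Icc.2 hs01.le) (right_mem_Icc.2 hs01.le) hs01.le
  have := hs0.2
  linarith

theorem tau_of_nonneg {s : ℝ} (hs : 0 ≤ s) : tau s = s := max_eq_left (by linarith)

theorem tau_ge (s : ℝ) : -1 ≤ tau s := le_max_right _ _

theorem tau_cont : Continuous tau := continuous_id.max continuous_const

theorem ba_nonneg (s x : ℝ) : 0 ≤ ba s x := le_max_left _ _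

theorem ba_le (s x : ℝ) : ba s x ≤ 9 / (8 + 2 * tau s) := by
  have := tau_ge s
  exact max_le (div_nonneg (by norm_num) (by linarith)) (min_le_right _ _)

theorem ba_cont : Continuous fun q : ℝ × ℝ => ba q.1 q.2 := by
  have h1 : Continuous fun q : ℝ × ℝ => 9 / (8 + 2 * tau q.1) := by
    refine Continuous.div continuous_const (by
      exact continuous_const.add (continuous_const.mul (tau_cont.comp continuous_fst))) ?_
    intro q
    have := tau_ge q.1
    linarith
  exact continuous_const.max (continuous_snd.min h1)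

theorem bb_cont : Continuous fun q : ℝ × ℝ × ℝ => bb q.1 q.2.1 q.2.2 := by
  have h1 : Continuous fun q : ℝ × ℝ × ℝ => ba q.1 q.2.1 :=
    ba_cont.comp (continuous_fst.prodMk (continuous_fst.comp continuous_snd))
  exact continuous_const.max ((continuous_snd.comp continuous_snd).min (continuous_const.mul h1))

theorem den_pos (p : ℝ) (hp : 9 ≤ p) (s x : ℝ) : 0 < p + 2 * tau s * ba s x := by
  have h1 := tau_ge s
  have h2 := ba_nonneg s x
  have h3 := ba_le s x
  have h4 : 0 < 8 + 2 * tau s := by linarith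
  have h5 : ba s x * (8 + 2 * tau s) ≤ 9 := by
    rwa [le_div_iff₀ h4] at h3
  nlinarith

theorem Mc_cont : Continuous fun q : ℝ × ℝ × ℝ => Mc q.1 q.2.1 q.2.2 := by
  have h1 : Continuous fun q : ℝ × ℝ × ℝ => ba q.1 q.2.1 :=
    ba_cont.comp (continuous_fst.prodMk (continuous_fst.comp continuous_snd))
  exact (h1.mul (bb_cont.sub h1)).div_const 2

theorem Nc_cont (p : ℝ) (hp : 9 ≤ p) :
    Continuous fun q : ℝ × ℝ × ℝ => Nc p q.1 q.2.1 q.2.2 := by
  have h1 : Continuous fun q : ℝ × ℝ × ℝ => ba q.1 q.2.1 :=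
    ba_cont.comp (continuous_fst.prodMk (continuous_fst.comp continuous_snd))
  have h2 := bb_cont
  have h3 : Continuous fun q : ℝ × ℝ × ℝ => tau q.1 := tau_cont.comp continuous_fst
  unfold Nc Nf
  refine Continuous.div ?_ ?_ ?_
  · fun_prop
  · fun_prop
  · intro q
    exact (den_pos p hp _ _).ne'

/-- the algebraic inequality on the upper face of the cone -/
theorem face_ineq (p s A : ℝ) (hp : 9 ≤ p) (hs : 0 ≤ s) (hA : 0 < A) (hA2 : A ≤ 9 / (8 + 2 * s)) :
    Nf p s A (5 / 9 * A) - (p + 2) * (5 / 9 * A) + 20 / 81 * s * A ^ 2 ≤ 0 := by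
  have hden : 0 < p + 2 * s * A := by positivity
  have hX0 : 0 ≤ s * A := by positivity
  have hX1 : s * A ≤ 9 / 2 := by
    rw [le_div_iff₀ (by positivity)] at hA2
    nlinarith
  set X := s * A with hX
  have key : 2 * p + 3 - 5 / 9 * (p ^ 2 + 2 * p) + X * ((110 * p + 387 - 25 * p ^ 2) / 81)
      + 280 / 81 * X ^ 2 ≤ 0 := by
    obtain ⟨r, rfl⟩ : ∃ r, p = 9 + r := ⟨p - 9, by ring⟩
    have hr : 0 ≤ r := by linarith
    have h1 : 280 / 81 * X ^ 2 ≤ 280 / 81 * (9 / 2) * X := by nlinarith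
    nlinarith [mul_nonneg hr hX0, mul_nonneg (mul_nonneg hr hr) hX0, mul_nonneg hr hr]
  have e : Nf p s A (5 / 9 * A) - (p + 2) * (5 / 9 * A) + 20 / 81 * s * A ^ 2
      = A * (2 * p + 3 - 5 / 9 * (p ^ 2 + 2 * p) + X * ((110 * p + 387 - 25 * p ^ 2) / 81)
      + 280 / 81 * X ^ 2) / (p + 2 * s * A) := by
    unfold Nf
    rw [hX]
    field_simp
    ring
  rw [e]
  exact div_nonpos_of_nonpos_of_nonneg (mul_nonpos_of_nonneg_of_nonpos hA.le key) hden.le

end RowA2

open RowA2

theorem T_zero_A2 (p : ℕ) (f : ℝ → ℝ) : T p f 0 = f 0 / (p + 2) := by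
  unfold T
  simp only [zero_mul]
  rw [intervalIntegral.integral_mul_const, integral_pow]
  push_cast
  field_simp
  ring_nf

/-- Row A2 from row T0. -/
theorem trapping_of
    (hT : ∀ (p : ℕ) {f : ℝ → ℝ}, Continuous f → ∀ {s : ℝ}, s ≠ 0 →
      HasDerivAt (T p f) ((f s - (p + 2) * T p f s) / (2 * s)) s)
    (p : ℕ) (hp : 9 ≤ p) (ξ ζ : ℝ → ℝ) (hξ : Continuous ξ) (hζ : Continuous ζ)
    (h1 : ∀ s, ξ s = 1 + ∫ t in (0 : ℝ)..s, Mc t (ξ t) (ζ t))
    (h2 : ∀ s, ζ s = T p (fun t => Nc p t (ξ t) (ζ t)) s) :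
    ∀ s, 0 ≤ s → 0 < ξ s ∧ ξ s ≤ 9 / (8 + 2 * s) ∧ 0 ≤ ζ s ∧ ζ s ≤ 5 / 9 * ξ s := by
  have hpR : (9 : ℝ) ≤ p := by exact_mod_cast hp
  have hMcont : Continuous fun t => Mc t (ξ t) (ζ t) :=
    Mc_cont.comp (continuous_id.prodMk (hξ.prodMk hζ))
  have hNcont : Continuous fun t => Nc p t (ξ t) (ζ t) :=
    (Nc_cont p hpR).comp (continuous_id.prodMk (hξ.prodMk hζ))
  have dξ : ∀ s, HasDerivAt ξ (Mc s (ξ s) (ζ s)) s := by
    intro s
    have h3 := (intervalIntegral.integral_hasDerivAt_right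
      (hMcont.intervalIntegrable 0 s) (hMcont.stronglyMeasurableAtFilter _ _)
      hMcont.continuousAt).const_add 1
    exact h3.congr_of_eventuallyEq (Filter.Eventually.of_forall h1)
  have dζ : ∀ s, 0 < s → HasDerivAt ζ ((Nc p s (ξ s) (ζ s) - (p + 2) * ζ s) / (2 * s)) s := by
    intro s hs
    have h3 := hT p hNcont hs.ne'
    have h4 : ζ = T p (fun t => Nc p t (ξ t) (ζ t)) := funext h2
    rw [← h4] at h3
    exact h3
  have hξ0 : ξ 0 = 1 := by rw [h1 0]; simp
  have hζ0 : ζ 0 = (2 * p + 3) / (p * (p + 2)) := by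
    rw [h2 0, T_zero_A2]
    have e1 : tau 0 = 0 := tau_of_nonneg le_rfl
    have e2 : ba 0 (ξ 0) = 1 := by
      unfold ba
      rw [e1, hξ0]
      norm_num
    simp only [Nc, Nf, e1, e2]
    field_simp
    ring
  -- (i)
  have hi : ∀ s, 0 ≤ s → 0 < ξ s := by
    intro s hs
    have hb := barrier (fun s => Real.exp (-s) - ξ s)
      (fun s => -Real.exp (-s) - Mc s (ξ s) (ζ s))
      ((Real.continuous_exp.comp continuous_neg).sub hξ) (by
        intro s _
        have h3 : HasDerivAt (fun s : ℝ => Real.exp (-s)) (-Real.exp (-s)) s := by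
          have := (hasDerivAt_neg s).exp
          simpa using this
        exact h3.sub (dξ s)) (by simp [hξ0]) (by
        intro s hs hgs
        have hgs' : ξ s < Real.exp (-s) := by
          have : 0 < Real.exp (-s) - ξ s := hgs
          linarith
        have ha0 := ba_nonneg s (ξ s)
        have hb0 : 0 ≤ bb s (ξ s) (ζ s) := le_max_left _ _
        have ha1 : ba s (ξ s) ≤ Real.exp (-s) :=
          max_le (Real.exp_pos _).le ((min_le_left _ _).trans hgs'.le)
        have ha2 : ba s (ξ s) ≤ 2 := by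
          refine (ba_le s (ξ s)).trans ?_
          rw [tau_of_nonneg hs.le, div_le_iff₀ (by positivity)]
          linarith
        show -Real.exp (-s) - Mc s (ξ s) (ζ s) ≤ 0
        unfold Mc
        nlinarith [mul_nonneg ha0 hb0]) s hs
    have hb' : Real.exp (-s) - ξ s ≤ 0 := hb
    have := Real.exp_pos (-s)
    linarith
  -- (ii)
  have hii : ∀ s, 0 ≤ s → ξ s ≤ 9 / (8 + 2 * s) := by
    intro s hs
    have dA : ∀ s : ℝ, 0 < s → HasDerivAt (fun s : ℝ => 9 / (8 + 2 * |s|))
        (-(2 / 9) * (9 / (8 + 2 * s)) ^ 2) s := by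
      intro s hs
      have h3 : HasDerivAt (fun s : ℝ => 8 + 2 * s) 2 s := by
        simpa using ((hasDerivAt_id s).const_mul 2).const_add 8
      have h4 := (hasDerivAt_const s (9 : ℝ)).div h3 (by positivity)
      have h5 : HasDerivAt (fun s : ℝ => 9 / (8 + 2 * s)) (-(2 / 9) * (9 / (8 + 2 * s)) ^ 2) s := by
        refine h4.congr_deriv ?_
        have h6 : (8 + 2 * s) ≠ 0 := by positivity
        rw [div_pow, mul_div_assoc']
        congr 1
        norm_num
      refine h5.congr_of_eventuallyEq ?_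
      filter_upwards [lt_mem_nhds hs] with y hy
      rw [abs_of_pos hy]
    have hb := barrier (fun s => ξ s - 9 / (8 + 2 * |s|))
      (fun s => Mc s (ξ s) (ζ s) - (-(2 / 9) * (9 / (8 + 2 * s)) ^ 2))
      (hξ.sub (Continuous.div continuous_const (by fun_prop) (fun s => by positivity)))
      (fun s hs => (dξ s).sub (dA s hs)) (by simp [hξ0]; norm_num) (by
        intro s hs hgs
        have hgs' : 9 / (8 + 2 * s) < ξ s := by
          have : 0 < ξ s - 9 / (8 + 2 * |s|) := hgs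
          rw [abs_of_pos hs] at this
          linarith
        have hAp : 0 < 9 / (8 + 2 * s) := by positivity
        have ha : ba s (ξ s) = 9 / (8 + 2 * s) := by
          unfold ba
          rw [tau_of_nonneg hs.le, min_eq_right hgs'.le, max_eq_right hAp.le]
        have hb1 : bb s (ξ s) (ζ s) ≤ 5 / 9 * ba s (ξ s) := by
          unfold bb
          refine max_le ?_ (min_le_right _ _)
          have := ba_nonneg s (ξ s)
          positivity
        show Mc s (ξ s) (ζ s) - (-(2 / 9) * (9 / (8 + 2 * s)) ^ 2) ≤ 0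
        unfold Mc
        rw [ha] at hb1 ⊢
        nlinarith) s hs
    have hb' : ξ s - 9 / (8 + 2 * |s|) ≤ 0 := hb
    rw [abs_of_nonneg hs] at hb'
    linarith
  -- (iii)
  have hiii : ∀ s, 0 ≤ s → 0 ≤ ζ s := by
    intro s hs
    have hb := barrier (fun s => -ζ s)
      (fun s => -((Nc p s (ξ s) (ζ s) - (p + 2) * ζ s) / (2 * s)))
      hζ.neg (fun s hs => (dζ s hs).neg) (by
        simp only [hζ0]
        have : 0 ≤ (2 * (p : ℝ) + 3) / (p * (p + 2)) := by positivity
        linarith) (by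
        intro s hs hgs
        have hgs' : ζ s < 0 := by
          have : 0 < -ζ s := hgs
          linarith
        have hb0 : bb s (ξ s) (ζ s) = 0 := by
          unfold bb
          exact max_eq_left ((min_le_left _ _).trans hgs'.le)
        have ha0 := ba_nonneg s (ξ s)
        have hN : 0 ≤ Nc p s (ξ s) (ζ s) := by
          unfold Nc Nf
          rw [hb0, tau_of_nonneg hs.le]
          have hs0 := hs.le
          refine div_nonneg ?_ (by positivity)
          have : 0 ≤ (2 * (p : ℝ) + 3) * ba s (ξ s) + s * (2 * ba s (ξ s) ^ 2) := by positivity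
          nlinarith
        show -((Nc p s (ξ s) (ζ s) - (p + 2) * ζ s) / (2 * s)) ≤ 0
        have : 0 ≤ (Nc p s (ξ s) (ζ s) - (p + 2) * ζ s) / (2 * s) := by
          refine div_nonneg ?_ (by positivity)
          nlinarith
        linarith) s hs
    have hb' : -ζ s ≤ 0 := hb
    linarith
  -- (iv)
  have hiv : ∀ s, 0 ≤ s → ζ s ≤ 5 / 9 * ξ s := by
    intro s hs
    have hb := barrier (fun s => ζ s - 5 / 9 * ξ s)
      (fun s => (Nc p s (ξ s) (ζ s) - (p + 2) * ζ s) / (2 * s) - 5 / 9 * Mc s (ξ s) (ζ s))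
      (hζ.sub (hξ.const_mul _)) (fun s hs => (dζ s hs).sub ((dξ s).const_mul _)) (by
        simp only [hζ0, hξ0]
        rw [sub_nonpos, div_le_iff₀ (by positivity)]
        nlinarith) (by
        intro s hs hgs
        have hgs' : 5 / 9 * ξ s < ζ s := by
          have : 0 < ζ s - 5 / 9 * ξ s := hgs
          linarith
        have h3 := hi s hs.le
        have h4 := hii s hs.le
        have ha : ba s (ξ s) = ξ s := by
          unfold ba
          rw [tau_of_nonneg hs.le, min_eq_left h4, max_eq_right h3.le]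
        have hb0 : bb s (ξ s) (ζ s) = 5 / 9 * ξ s := by
          unfold bb
          rw [ha, min_eq_right hgs'.le, max_eq_right (by positivity)]
        have h5 := face_ineq p s (ξ s) hpR hs.le h3 h4
        show (Nc p s (ξ s) (ζ s) - (p + 2) * ζ s) / (2 * s) - 5 / 9 * Mc s (ξ s) (ζ s) ≤ 0
        unfold Nc Mc
        rw [ha, hb0, tau_of_nonneg hs.le]
        rw [sub_nonpos, div_le_iff₀ (by positivity)]
        nlinarith) s hs
    have hb' : ζ s - 5 / 9 * ξ s ≤ 0 := hb
    linarith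
  exact fun s hs => ⟨hi s hs, hii s hs, hiii s hs, hiv s hs⟩

/-- Row A2: the cone `0 ≤ ζ ≤ 5/9 ξ` is invariant. -/
theorem trapping (p : ℕ) (hp : 9 ≤ p) (ξ ζ : ℝ → ℝ) (hξ : Continuous ξ) (hζ : Continuous ζ)
    (h1 : ∀ s, ξ s = 1 + ∫ t in (0 : ℝ)..s, Mc t (ξ t) (ζ t))
    (h2 : ∀ s, ζ s = T p (fun t => Nc p t (ξ t) (ζ t)) s) :
    ∀ s, 0 ≤ s → 0 < ξ s ∧ ξ s ≤ 9 / (8 + 2 * s) ∧ 0 ≤ ζ s ∧ ζ s ≤ 5 / 9 * ξ s :=
  trapping_of (fun p _ hf _ hs => T_hasDerivAt p hf hs) p hp ξ ζ hξ hζ h1 h2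

end Vale.Agent.H6.AB
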