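import Vale.Agent.H6.AB.T0

namespace Vale.Agent.H6.AB

open MeasureTheory Set Filter
open scoped ContDiff

theorem seg_mem {δ s σ : ℝ} (hδ : 0 < δ) (hs : -δ < s) (h0 : 0 ≤ σ) (h1 : σ ≤ 1) :
    -δ < s * σ ^ 2 := by
  have h2 : σ ^ 2 ≤ 1 := pow_le_one₀ h0 h1
  have h3 : 0 ≤ σ ^ 2 := sq_nonneg _
  rcases le_or_gt 0 s with h | h
  · have := mul_nonneg h h3
    linarith
  · nlinarith

/-- `T p f (s)` only depends on `f` on `(-δ, ∞)` for `s > -δ`. -/
theorem T_congr (p : ℕ) {f g : ℝ → ℝ} {δ : ℝ} (hδ : 0 < δ) (hfg : ∀ t, -δ < t → f t = g t)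
    {s : ℝ} (hs : -δ < s) : T p f s = T p g s := by
  unfold T
  refine intervalIntegral.integral_congr fun x hx => ?_
  rw [uIcc_of_le zero_le_one] at hx
  show x ^ (p + 1) * f (s * x ^ 2) = x ^ (p + 1) * g (s * x ^ 2)
  rw [hfg _ (seg_mem hδ hs hx.1 hx.2)]

/-- continuous extension -/
theorem exists_cont_ext {f : ℝ → ℝ} {δ δ' : ℝ} (hδ' : δ' < δ) (hf : ContinuousOn f (Ioi (-δ))) :
    ∃ g : ℝ → ℝ, Continuous g ∧ ∀ t, -δ' < t → f t = g t := by
  refine ⟨fun t => f (max t (-δ')), ?_, ?_⟩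
  · refine hf.comp_continuous (by fun_prop) fun t => ?_
    exact lt_of_lt_of_le (show -δ < -δ' by linarith) (le_max_right _ _)
  · intro t ht
    simp [max_eq_left ht.le]

theorem T_continuousOn (p : ℕ) {f : ℝ → ℝ} {δ : ℝ} (hδ : 0 < δ) (hf : ContinuousOn f (Ioi (-δ))) :
    ContinuousOn (T p f) (Ioi (-δ)) := by
  intro s hs
  have hs' : -δ < s := hs
  -- choose δ' with  -δ < -δ' < min s 0
  obtain ⟨e, he1, he2⟩ := exists_between (show -δ < min s 0 from lt_min hs' (by linarith))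
  have he3 : e < s := lt_of_lt_of_le he2 (min_le_left _ _)
  have he4 : e < 0 := lt_of_lt_of_le he2 (min_le_right _ _)
  obtain ⟨g, hg, hfg⟩ := exists_cont_ext (δ' := -e) (by linarith) hf
  have hEq : T p f =ᶠ[nhds s] T p g := by
    filter_upwards [Ioi_mem_nhds he3] with t ht
    exact T_congr p (δ := -e) (by linarith) hfg (by rw [neg_neg]; exact ht)
  exact ((T_continuous p hg).continuousAt.congr hEq.symm).continuousWithinAt

theorem integrand_continuousOn (p : ℕ) {f : ℝ → ℝ} {δ : ℝ} (hδ : 0 < δ)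
    (hf : ContinuousOn f (Ioi (-δ))) {s : ℝ} (hs : -δ < s) :
    ContinuousOn (fun σ : ℝ => σ ^ (p + 1) * f (s * σ ^ 2)) (Icc 0 1) := by
  refine ContinuousOn.mul (by fun_prop) ?_
  refine hf.comp (by fun_prop) ?_
  intro σ hσ
  exact seg_mem hδ hs hσ.1 hσ.2

theorem T_hasDerivAt_smooth (p : ℕ) {f f' : ℝ → ℝ} {δ : ℝ} (hδ : 0 < δ)
    (hf : ∀ t, -δ < t → HasDerivAt f (f' t) t) (hf' : ContinuousOn f' (Ioi (-δ))) {s : ℝ}
    (hs : -δ < s) : HasDerivAt (T p f) (T (p + 2) f' s) s := by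
  obtain ⟨e, he1, he2⟩ := exists_between (show -δ < min s 0 from lt_min hs (by linarith))
  have he3 : e < s := lt_of_lt_of_le he2 (min_le_left _ _)
  have he4 : e < 0 := lt_of_lt_of_le he2 (min_le_right _ _)
  set M : ℝ := max s 0 + 1 with hM
  have hMs : s < M := by have := le_max_left s 0; linarith
  have hM0 : 0 < M := by have := le_max_right s 0; linarith
  have hfc : ContinuousOn f (Ioi (-δ)) := fun t ht => (hf t ht).continuousAt.continuousWithinAt
  have hsub : Icc e M ⊆ Ioi (-δ) := fun t ht => lt_of_lt_of_le he1 ht.1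
  obtain ⟨C, hC⟩ := isCompact_Icc.exists_bound_of_continuousOn (hf'.mono hsub)
  have hseg : ∀ x ∈ Ioo e M, ∀ t : ℝ, 0 ≤ t → t ≤ 1 → x * t ^ 2 ∈ Icc e M := by
    intro x hx t h0 h1
    have h2 : t ^ 2 ≤ 1 := pow_le_one₀ h0 h1
    have h3 : 0 ≤ t ^ 2 := sq_nonneg _
    constructor
    · rcases le_or_gt 0 x with h | h
      · have := mul_nonneg h h3
        linarith
      · have := hx.1
        nlinarith
    · rcases le_or_gt 0 x with h | h
      · have := hx.2
        nlinarith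
      · have : x * t ^ 2 ≤ 0 := mul_nonpos_of_nonpos_of_nonneg h.le h3
        linarith
  have key := intervalIntegral.hasDerivAt_integral_of_dominated_loc_of_deriv_le
    (μ := volume) (a := 0) (b := 1) (x₀ := s) (s := Ioo e M)
    (F := fun x σ => σ ^ (p + 1) * f (x * σ ^ 2))
    (F' := fun x σ => σ ^ (p + 2 + 1) * f' (x * σ ^ 2)) (bound := fun _ => C)
    (Ioo_mem_nhds he3 hMs) ?_ ?_ ?_ ?_ ?_ ?_
  · exact key.2
  · filter_upwards [Ioi_mem_nhds hs] with x hx
    have := integrand_continuousOn p hδ hfc hx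
    rw [uIoc_of_le zero_le_one]
    exact (this.mono Ioc_subset_Icc_self).aestronglyMeasurable measurableSet_Ioc
  · have := integrand_continuousOn p hδ hfc hs
    rw [← uIcc_of_le zero_le_one] at this
    exact this.intervalIntegrable
  · have := integrand_continuousOn (p + 2) hδ hf' hs
    rw [uIoc_of_le zero_le_one]
    exact (this.mono Ioc_subset_Icc_self).aestronglyMeasurable measurableSet_Ioc
  · refine Eventually.of_forall fun t ht x hx => ?_
    rw [uIoc_of_le zero_le_one] at ht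
    have h1 := hC _ (hseg x hx t ht.1.le ht.2)
    rw [norm_mul]
    have h2 : ‖t ^ (p + 2 + 1)‖ ≤ 1 := by
      rw [Real.norm_eq_abs, abs_of_nonneg (pow_nonneg ht.1.le _)]
      exact pow_le_one₀ ht.1.le ht.2
    calc ‖t ^ (p + 2 + 1)‖ * ‖f' (x * t ^ 2)‖ ≤ 1 * ‖f' (x * t ^ 2)‖ :=
          mul_le_mul_of_nonneg_right h2 (norm_nonneg _)
      _ ≤ C := by rw [one_mul]; exact h1
  · exact intervalIntegrable_const
  · refine Eventually.of_forall fun t ht x hx => ?_
    rw [uIoc_of_le zero_le_one] at ht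
    have h1 : -δ < x * t ^ 2 := hsub (hseg x hx t ht.1.le ht.2)
    have h2 : HasDerivAt (fun x : ℝ => x * t ^ 2) (t ^ 2) x := by
      simpa using (hasDerivAt_id x).mul_const (t ^ 2)
    have h3 := HasDerivAt.comp x (h₂ := f) (h := fun x : ℝ => x * t ^ 2) (hf _ h1) h2
    have h4 := h3.const_mul (t ^ (p + 1))
    refine h4.congr_deriv ?_
    ring

/-- Row T1 with the natural hypothesis. -/
theorem T_contDiffOn' (k : ℕ) : ∀ (p : ℕ) {f : ℝ → ℝ} {δ : ℝ} (_ : 0 < δ)
    (_ : ContDiffOn ℝ k f (Ioi (-δ))), ContDiffOn ℝ k (T p f) (Ioi (-δ)) := by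
  induction k with
  | zero =>
    intro p f δ hδ hf
    simp only [Nat.cast_zero] at hf ⊢
    rw [contDiffOn_zero] at hf ⊢
    exact T_continuousOn p hδ hf
  | succ k ih =>
    intro p f δ hδ hf
    have hcast : ((k + 1 : ℕ) : WithTop ℕ∞) = (k : WithTop ℕ∞) + 1 := by push_cast; rfl
    rw [hcast] at hf ⊢
    rw [contDiffOn_succ_iff_deriv_of_isOpen isOpen_Ioi] at hf ⊢
    obtain ⟨hd, _, hd2⟩ := hf
    have hder : ∀ t, -δ < t → HasDerivAt f (deriv f t) t := fun t ht =>
      ((hd t ht).differentiableAt (Ioi_mem_nhds ht)).hasDerivAt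
    have hcont : ContinuousOn (deriv f) (Ioi (-δ)) := hd2.continuousOn
    have hT : ∀ t, -δ < t → HasDerivAt (T p f) (T (p + 2) (deriv f) t) t := fun t ht =>
      T_hasDerivAt_smooth p hδ hder hcont ht
    refine ⟨fun t ht => (hT t ht).differentiableAt.differentiableWithinAt, by simp, ?_⟩
    refine (ih (p + 2) hδ hd2).congr ?_
    intro t ht
    exact (hT t ht).deriv

/-- Row T1 (regularity is preserved); `f` globally continuous, `C^k` on `(-δ, ∞)`. -/
theorem T_contDiffOn (k : ℕ) (p : ℕ) {f : ℝ → ℝ} {δ : ℝ} (hδ : 0 < δ) (_hc : Continuous f)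
    (hf : ContDiffOn ℝ k f (Ioi (-δ))) : ContDiffOn ℝ k (T p f) (Ioi (-δ)) :=
  T_contDiffOn' k p hδ hf

/-- local version of the gain lemma -/
theorem sT_hasDerivAt' (p : ℕ) {h : ℝ → ℝ} {δ : ℝ} (hδ : 0 < δ) (hh : ContinuousOn h (Ioi (-δ)))
    {s : ℝ} (hs : -δ < s) :
    HasDerivAt (fun s => s * T (p + 2) h s) (h s / 2 - (p + 2) / 2 * T (p + 2) h s) s := by
  obtain ⟨e, he1, he2⟩ := exists_between (show -δ < min s 0 from lt_min hs (by linarith))
  have he3 : e < s := lt_of_lt_of_le he2 (min_le_left _ _)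
  have he4 : e < 0 := lt_of_lt_of_le he2 (min_le_right _ _)
  obtain ⟨g, hg, hfg⟩ := exists_cont_ext (δ' := -e) (by linarith) hh
  have hEq : (fun s => s * T (p + 2) h s) =ᶠ[nhds s] fun s => s * T (p + 2) g s := by
    filter_upwards [Ioi_mem_nhds he3] with t ht
    rw [T_congr (p + 2) (δ := -e) (by linarith) hfg (by rw [neg_neg]; exact ht)]
  have h1 := (sT_hasDerivAt p hg s).congr_of_eventuallyEq hEq
  rw [hfg s (by rw [neg_neg]; exact he3),
    T_congr (p + 2) (δ := -e) (by linarith) hfg (by rw [neg_neg]; exact he3)]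
  exact h1

/-- local version of `T_hasDerivAt` -/
theorem T_hasDerivAt' (p : ℕ) {f : ℝ → ℝ} {δ : ℝ} (hδ : 0 < δ) (hh : ContinuousOn f (Ioi (-δ)))
    {s : ℝ} (hs : -δ < s) (hs0 : s ≠ 0) :
    HasDerivAt (T p f) ((f s - (p + 2) * T p f s) / (2 * s)) s := by
  obtain ⟨e, he1, he2⟩ := exists_between (show -δ < min s 0 from lt_min hs (by linarith))
  have he3 : e < s := lt_of_lt_of_le he2 (min_le_left _ _)
  have he4 : e < 0 := lt_of_lt_of_le he2 (min_le_right _ _)
  obtain ⟨g, hg, hfg⟩ := exists_cont_ext (δ' := -e) (by linarith) hh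
  have hEq : T p f =ᶠ[nhds s] T p g := by
    filter_upwards [Ioi_mem_nhds he3] with t ht
    rw [T_congr p (δ := -e) (by linarith) hfg (by rw [neg_neg]; exact ht)]
  have h1 := (T_hasDerivAt p hg hs0).congr_of_eventuallyEq hEq
  rw [hfg s (by rw [neg_neg]; exact he3),
    T_congr p (δ := -e) (by linarith) hfg (by rw [neg_neg]; exact he3)]
  exact h1

end Vale.Agent.H6.AB
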