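import Vale.Agent.H6.AB.T0
import Vale.Agent.H6.AB.T1

namespace Vale.Agent.H6.AB

open MeasureTheory Set
open scoped ContDiff

/-- the regular part of the nonlinearity -/
noncomputable def Hf (p s x z : ℝ) : ℝ :=
  (p * ((4 * p + 9) * x * z + 2 * x ^ 2 - p ^ 2 * z ^ 2) + p * s * (6 * x * z ^ 2 + 2 * x ^ 2 * z)
    - 2 * (2 * p + 3) * x ^ 2) / (p * (p + 2 * s * x))

theorem Nf_split (p s x z : ℝ) (hp : p ≠ 0) (hd : p + 2 * s * x ≠ 0) :
    Nf p s x z = (2 * p + 3) / p * x + s * Hf p s x z := by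
  unfold Nf Hf
  obtain ⟨D, hD⟩ : ∃ D, D = p + 2 * s * x := ⟨_, rfl⟩
  rw [← hD] at hd ⊢
  field_simp
  rw [hD]
  ring

/-- Bootstrapping on `(-δ₁, ∞)`, `δ₁ < δ`, modulo the T-lemmas. -/
theorem smooth_aux
    (hsT : ∀ (p : ℕ) {h : ℝ → ℝ} (_ : Continuous h) (s : ℝ),
      HasDerivAt (fun s => s * T (p + 2) h s) (h s / 2 - (p + 2) / 2 * T (p + 2) h s) s)
    (hT1 : ∀ (k : ℕ) (p : ℕ) {f : ℝ → ℝ} {δ : ℝ} (_ : 0 < δ) (_ : Continuous f)
      (_ : ContDiffOn ℝ k f (Ioi (-δ))), ContDiffOn ℝ k (T p f) (Ioi (-δ)))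
    (p : ℕ) (hp : 9 ≤ p) (ξ ζ : ℝ → ℝ) (hξ : Continuous ξ) (hζ : Continuous ζ)
    {δ δ₁ : ℝ} (hδ₁ : 0 < δ₁) (hδ : δ₁ < δ)
    (h1 : ∀ s, -δ < s → ξ s = 1 + ∫ t in (0 : ℝ)..s, ξ t * (ζ t - ξ t) / 2)
    (h2 : ∀ s, -δ < s → ζ s = T p (fun t => Nf p t (ξ t) (ζ t)) s)
    (h3 : ∀ s, -δ < s → 0 < p + 2 * s * ξ s) (k : ℕ) :
    ContDiffOn ℝ k ξ (Ioi (-δ₁)) ∧ ContDiffOn ℝ k ζ (Ioi (-δ₁)) := by
  have hp0 : (p : ℝ) ≠ 0 := by
    have : (0 : ℝ) < p := by exact_mod_cast (by omega : 0 < p)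
    exact this.ne'
  -- the clipped variable
  set c : ℝ → ℝ := fun t => max t (-δ₁) with hc
  have hcc : Continuous c := continuous_id.max continuous_const
  have hcI : ∀ t, -δ < c t := fun t => lt_of_lt_of_le (by linarith) (le_max_right t (-δ₁))
  have hcid : ∀ t, -δ₁ < t → c t = t := fun t ht => max_eq_left ht.le
  have hden : ∀ t, (p : ℝ) + 2 * c t * ξ (c t) ≠ 0 := fun t => (h3 _ (hcI t)).ne'
  set f1 : ℝ → ℝ := fun t => (2 * (p : ℝ) + 3) / p * ξ (c t) with hf1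
  set h : ℝ → ℝ := fun t => Hf p (c t) (ξ (c t)) (ζ (c t)) with hh
  have hf1c : Continuous f1 := continuous_const.mul (hξ.comp hcc)
  have hhc : Continuous h := by
    have h1' : Continuous fun t => ξ (c t) := hξ.comp hcc
    have h2' : Continuous fun t => ζ (c t) := hζ.comp hcc
    simp only [hh]
    unfold Hf
    refine Continuous.div (by fun_prop) (by fun_prop) fun t => mul_ne_zero hp0 (hden t)
  -- decomposition of `ζ`
  have hzeta : ∀ s, -δ₁ < s → ζ s = T p f1 s + s * T (p + 2) h s := by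
    intro s hs
    rw [h2 s (by linarith)]
    unfold T
    rw [← intervalIntegral.integral_const_mul, ← intervalIntegral.integral_add]
    · apply intervalIntegral.integral_congr
      intro σ hσ
      rw [uIcc_of_le zero_le_one] at hσ
      have hσs : -δ₁ < s * σ ^ 2 := by
        have h01 : σ ^ 2 ≤ 1 := pow_le_one₀ hσ.1 hσ.2
        have h00 : 0 ≤ σ ^ 2 := sq_nonneg σ
        rcases le_or_gt 0 s with h | h
        · nlinarith [mul_nonneg h h00]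
        · nlinarith
      have hcs := hcid _ hσs
      have hd := hden (s * σ ^ 2)
      rw [hcs] at hd
      simp only [hf1, hh, hcs]
      rw [Nf_split _ _ _ _ hp0 hd]
      ring
    · apply Continuous.intervalIntegrable
      fun_prop
    · apply Continuous.intervalIntegrable
      fun_prop
  have hO : IsOpen (Ioi (-δ₁)) := isOpen_Ioi
  have hcont1 : Continuous fun t => ξ t * (ζ t - ξ t) / 2 := by fun_prop
  -- derivative of `ξ`
  have hξd : ∀ s ∈ Ioi (-δ₁), HasDerivAt ξ (ξ s * (ζ s - ξ s) / 2) s := by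
    intro s hs
    have hd : HasDerivAt (fun s => 1 + ∫ t in (0 : ℝ)..s, ξ t * (ζ t - ξ t) / 2)
        (ξ s * (ζ s - ξ s) / 2) s := by
      have := (intervalIntegral.integral_hasDerivAt_right (hcont1.intervalIntegrable 0 s)
        hcont1.stronglyMeasurable.stronglyMeasurableAtFilter hcont1.continuousAt)
      simpa using this.const_add 1
    refine hd.congr_of_eventuallyEq ?_
    filter_upwards [hO.mem_nhds hs] with t ht
    exact h1 t (by have : -δ₁ < t := ht; linarith)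
  -- derivative of the second part
  have hgd : ∀ s, HasDerivAt (fun s => s * T (p + 2) h s) (h s / 2 - (p + 2) / 2 * T (p + 2) h s) s :=
    fun s => hsT p hhc s
  induction k with
  | zero =>
    exact ⟨by simpa using hξ.continuousOn, by simpa using hζ.continuousOn⟩
  | succ k ih =>
    obtain ⟨ihξ, ihζ⟩ := ih
    -- `ξ`
    have hξ' : ContDiffOn ℝ ((k + 1 : ℕ) : WithTop ℕ∞) ξ (Ioi (-δ₁)) := by
      push_cast
      rw [contDiffOn_succ_iff_deriv_of_isOpen hO]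
      refine ⟨fun s hs => (hξd s hs).differentiableAt.differentiableWithinAt, by simp, ?_⟩
      have : ContDiffOn ℝ k (fun s => ξ s * (ζ s - ξ s) / 2) (Ioi (-δ₁)) :=
        (ihξ.mul (ihζ.sub ihξ)).div_const 2
      exact this.congr fun s hs => (hξd s hs).deriv
    -- `h`
    have hhk : ContDiffOn ℝ k h (Ioi (-δ₁)) := by
      have : ContDiffOn ℝ k (fun s => Hf p s (ξ s) (ζ s)) (Ioi (-δ₁)) := by
        unfold Hf
        have hid : ContDiffOn ℝ k (fun s : ℝ => s) (Ioi (-δ₁)) := contDiffOn_id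
        refine ContDiffOn.div ?_ ?_ fun s hs => ?_
        · fun_prop
        · fun_prop
        · have := hden s
          rw [hcid s hs] at this
          exact mul_ne_zero hp0 this
      refine this.congr fun s hs => ?_
      simp only [hh, hcid s hs]
    have hTh : ContDiffOn ℝ k (T (p + 2) h) (Ioi (-δ₁)) := hT1 k (p + 2) hδ₁ hhc hhk
    have hg : ContDiffOn ℝ ((k + 1 : ℕ) : WithTop ℕ∞) (fun s => s * T (p + 2) h s) (Ioi (-δ₁)) := by
      push_cast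
      rw [contDiffOn_succ_iff_deriv_of_isOpen hO]
      refine ⟨fun s hs => (hgd s).differentiableAt.differentiableWithinAt, by simp, ?_⟩
      have : ContDiffOn ℝ k (fun s => h s / 2 - ((p : ℝ) + 2) / 2 * T (p + 2) h s) (Ioi (-δ₁)) :=
        (hhk.div_const 2).sub (contDiffOn_const.mul hTh)
      exact this.congr fun s hs => (hgd s).deriv
    have hf1k : ContDiffOn ℝ ((k + 1 : ℕ) : WithTop ℕ∞) f1 (Ioi (-δ₁)) := by
      have : ContDiffOn ℝ ((k + 1 : ℕ) : WithTop ℕ∞) (fun s => (2 * (p : ℝ) + 3) / p * ξ s) (Ioi (-δ₁)) :=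
        contDiffOn_const.mul hξ'
      refine this.congr fun s hs => ?_
      simp only [hf1, hcid s hs]
    have hTf : ContDiffOn ℝ ((k + 1 : ℕ) : WithTop ℕ∞) (T p f1) (Ioi (-δ₁)) :=
      hT1 (k + 1) p hδ₁ hf1c hf1k
    refine ⟨hξ', ?_⟩
    exact (hTf.add hg).congr fun s hs => hzeta s hs

/-- Row A3 modulo the T-lemmas. -/
theorem smooth_sol_aux
    (hsT : ∀ (p : ℕ) {h : ℝ → ℝ} (_ : Continuous h) (s : ℝ),
      HasDerivAt (fun s => s * T (p + 2) h s) (h s / 2 - (p + 2) / 2 * T (p + 2) h s) s)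
    (hT1 : ∀ (k : ℕ) (p : ℕ) {f : ℝ → ℝ} {δ : ℝ} (_ : 0 < δ) (_ : Continuous f)
      (_ : ContDiffOn ℝ k f (Ioi (-δ))), ContDiffOn ℝ k (T p f) (Ioi (-δ)))
    (p : ℕ) (hp : 9 ≤ p) (ξ ζ : ℝ → ℝ) (hξ : Continuous ξ) (hζ : Continuous ζ)
    {δ : ℝ} (hδ : 0 < δ)
    (h1 : ∀ s, -δ < s → ξ s = 1 + ∫ t in (0 : ℝ)..s, ξ t * (ζ t - ξ t) / 2)
    (h2 : ∀ s, -δ < s → ζ s = T p (fun t => Nf p t (ξ t) (ζ t)) s)
    (h3 : ∀ s, -δ < s → 0 < p + 2 * s * ξ s) :
    ContDiffOn ℝ ∞ ξ (Ioi (-δ)) ∧ ContDiffOn ℝ ∞ ζ (Ioi (-δ)) := by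
  have key : ∀ x ∈ Ioi (-δ), ContDiffAt ℝ ∞ ξ x ∧ ContDiffAt ℝ ∞ ζ x := by
    intro x hx
    have hx' : max (-x) 0 < δ := max_lt (by have : -δ < x := hx; linarith) hδ
    obtain ⟨δ₁, hd1, hd2⟩ := exists_between hx'
    have hd0 : 0 < δ₁ := lt_of_le_of_lt (le_max_right _ _) hd1
    have hxd : -δ₁ < x := by linarith [le_max_left (-x) 0]
    have hmem : Ioi (-δ₁) ∈ nhds x := isOpen_Ioi.mem_nhds hxd
    have hk := fun k => smooth_aux hsT hT1 p hp ξ ζ hξ hζ hd0 hd2 h1 h2 h3 k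
    exact ⟨contDiffAt_infty.2 fun k => (hk k).1.contDiffAt hmem,
      contDiffAt_infty.2 fun k => (hk k).2.contDiffAt hmem⟩
  exact ⟨fun x hx => (key x hx).1.contDiffWithinAt, fun x hx => (key x hx).2.contDiffWithinAt⟩

/-- Row A3: smoothness (bootstrapping with T1 and the gain lemma). -/
theorem smooth_sol (p : ℕ) (hp : 9 ≤ p) (ξ ζ : ℝ → ℝ) (hξ : Continuous ξ) (hζ : Continuous ζ)
    {δ : ℝ} (hδ : 0 < δ)
    (h1 : ∀ s, -δ < s → ξ s = 1 + ∫ t in (0 : ℝ)..s, ξ t * (ζ t - ξ t) / 2)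
    (h2 : ∀ s, -δ < s → ζ s = T p (fun t => Nf p t (ξ t) (ζ t)) s)
    (h3 : ∀ s, -δ < s → 0 < p + 2 * s * ξ s) :
    ContDiffOn ℝ ∞ ξ (Ioi (-δ)) ∧ ContDiffOn ℝ ∞ ζ (Ioi (-δ)) :=
  smooth_sol_aux (fun p _ hh s => sT_hasDerivAt p hh s)
    (fun k p _ _ hδ hc hf => T_contDiffOn k p hδ hc hf) p hp ξ ζ hξ hζ hδ h1 h2 h3

end Vale.Agent.H6.AB
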