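import Vale.Agent.H14.AB.A0
import Vale.Agent.H6.AB.A1
import Vale.Agent.H6.AB.A2
import Vale.Agent.H6.AB.A3

namespace Vale.Agent.H6.AB

open MeasureTheory Set
open scoped ContDiff

/-- Row A4: the solution of the singular system. -/
theorem sol_exists (p : ℕ) (hp : 9 ≤ p) : ∃ (δ : ℝ) (ξ ζ : ℝ → ℝ), 0 < δ ∧
    ContDiffOn ℝ ∞ ξ (Ioi (-δ)) ∧ ContDiffOn ℝ ∞ ζ (Ioi (-δ)) ∧
    (∀ s, -δ < s → HasDerivAt ξ (ξ s * (ζ s - ξ s) / 2) s) ∧
    (∀ s, -δ < s → 2 * s * deriv ζ s + (p + 2) * ζ s = Nf p s (ξ s) (ζ s)) ∧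
    (∀ s, -δ < s → 0 < ξ s ∧ 0 < 1 + s * ζ s ∧ 0 < p + 2 * s * ξ s) := by
  have hp9 : (9 : ℝ) ≤ p := by exact_mod_cast hp
  have hp0 : (0 : ℝ) < p := by linarith
  obtain ⟨hM, hN, C, hMb, hNb, hMl, hNl⟩ := clip_bounds p hp
  obtain ⟨ξ, ζ, hξ, hζ, h1, h2⟩ := fixed_point_abs p Mc (Nc p) C hM hN hMb hNb hMl hNl
  have htr := trapping p hp ξ ζ hξ hζ h1 h2
  have hMcc : Continuous fun t => Mc t (ξ t) (ζ t) := hM.comp (continuous_id.prodMk (hξ.prodMk hζ))
  have hNcc : Continuous fun t => Nc p t (ξ t) (ζ t) :=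
    hN.comp (continuous_id.prodMk (hξ.prodMk hζ))
  -- values at the origin
  have htau0 : tau 0 = 0 := by norm_num [tau]
  have hξ0 : ξ 0 = 1 := by
    have := h1 0
    simpa using this
  have hba0 : ba 0 1 = 1 := by
    unfold ba
    rw [htau0]
    norm_num
  have hζ0 : ζ 0 = (2 * p + 3) / (p * (p + 2)) := by
    rw [h2 0, T_zero]
    unfold Nc Nf
    rw [htau0, hξ0, hba0]
    field_simp
    ring
  have hζpos : 0 < ζ 0 := by
    rw [hζ0]
    positivity
  have hζlt : ζ 0 < 5 / 9 * ξ 0 := by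
    rw [hζ0, hξ0, div_lt_iff₀ (by positivity)]
    nlinarith
  -- a neighbourhood of the origin
  have htauc : Continuous fun s => 9 / (8 + 2 * tau s) := by
    refine Continuous.div continuous_const
      (continuous_const.add (continuous_const.mul tau_continuous)) fun s => ?_
    have := den_pos s
    linarith
  have ev : ∀ᶠ s in nhds (0 : ℝ), 0 < ξ s ∧ ξ s < 9 / (8 + 2 * tau s) ∧ 0 < ζ s ∧
      ζ s < 5 / 9 * ξ s ∧ 0 < 1 + s * ζ s ∧ 0 < p + 2 * s * ξ s ∧ -1 < s := by
    refine Filter.Eventually.and ?_ (Filter.Eventually.and ?_ (Filter.Eventually.and ?_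
      (Filter.Eventually.and ?_ (Filter.Eventually.and ?_ (Filter.Eventually.and ?_ ?_)))))
    · exact continuousAt_const.eventually_lt hξ.continuousAt (by rw [hξ0]; norm_num)
    · exact hξ.continuousAt.eventually_lt htauc.continuousAt (by rw [hξ0, htau0]; norm_num)
    · exact continuousAt_const.eventually_lt hζ.continuousAt hζpos
    · exact hζ.continuousAt.eventually_lt (continuous_const.mul hξ).continuousAt hζlt
    · exact continuousAt_const.eventually_lt
        (continuous_const.add (continuous_id.mul hζ)).continuousAt (by simp)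
    · exact continuousAt_const.eventually_lt
        (continuous_const.add ((continuous_const.mul continuous_id).mul hξ)).continuousAt
        (by simpa using hp0)
    · exact continuousAt_const.eventually_lt continuousAt_id (by norm_num)
  obtain ⟨δ, hδ, hball⟩ := Metric.eventually_nhds_iff.1 ev
  -- all bounds on `(-δ, ∞)`
  have hall : ∀ s, -δ < s → 0 < ξ s ∧ ξ s ≤ 9 / (8 + 2 * tau s) ∧ 0 ≤ ζ s ∧
      ζ s ≤ 5 / 9 * ξ s ∧ 0 < 1 + s * ζ s ∧ 0 < p + 2 * s * ξ s ∧ -1 < s := by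
    intro s hs
    rcases le_or_gt 0 s with h | h
    · obtain ⟨a1, a2, a3, a4⟩ := htr s h
      have ht : tau s = s := max_eq_left (by linarith)
      refine ⟨a1, by rw [ht]; exact a2, a3, a4, ?_, ?_, by linarith⟩
      · have := mul_nonneg h a3
        linarith
      · have := mul_nonneg h a1.le
        nlinarith
    · obtain ⟨a1, a2, a3, a4, a5, a6, a7⟩ := hball (y := s) (by
        rw [Real.dist_eq, sub_zero, abs_of_neg h]; linarith)
      exact ⟨a1, a2.le, a3.le, a4.le, a5, a6, a7⟩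
  have htau : ∀ s, -δ < s → tau s = s := fun s hs => max_eq_left (hall s hs).2.2.2.2.2.2.le
  have hba : ∀ s, -δ < s → ba s (ξ s) = ξ s := by
    intro s hs
    obtain ⟨a1, a2, a3, a4, a5, a6, a7⟩ := hall s hs
    unfold ba
    rw [min_eq_left a2, max_eq_right a1.le]
  have hbb : ∀ s, -δ < s → bb s (ξ s) (ζ s) = ζ s := by
    intro s hs
    obtain ⟨a1, a2, a3, a4, a5, a6, a7⟩ := hall s hs
    unfold bb
    rw [hba s hs, min_eq_left a4, max_eq_right a3]
  have hMc : ∀ s, -δ < s → Mc s (ξ s) (ζ s) = ξ s * (ζ s - ξ s) / 2 := by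
    intro s hs
    unfold Mc
    rw [hba s hs, hbb s hs]
  have hNc : ∀ s, -δ < s → Nc p s (ξ s) (ζ s) = Nf p s (ξ s) (ζ s) := by
    intro s hs
    unfold Nc
    rw [hba s hs, hbb s hs, htau s hs]
  have h1' : ∀ s, -δ < s → ξ s = 1 + ∫ t in (0 : ℝ)..s, ξ t * (ζ t - ξ t) / 2 := by
    intro s hs
    rw [h1 s]
    congr 1
    apply intervalIntegral.integral_congr
    intro t ht
    refine hMc t (lt_of_lt_of_le ?_ ht.1)
    exact lt_min (by linarith) hs
  have h2' : ∀ s, -δ < s → ζ s = T p (fun t => Nf p t (ξ t) (ζ t)) s := by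
    intro s hs
    rw [h2 s]
    unfold T
    apply intervalIntegral.integral_congr
    intro σ hσ
    rw [uIcc_of_le zero_le_one] at hσ
    have hσs : -δ < s * σ ^ 2 := by
      have h01 : σ ^ 2 ≤ 1 := pow_le_one₀ hσ.1 hσ.2
      have h00 : 0 ≤ σ ^ 2 := sq_nonneg σ
      rcases le_or_gt 0 s with h | h
      · nlinarith [mul_nonneg h h00]
      · nlinarith
    simp only [hNc _ hσs]
  have h3' : ∀ s, -δ < s → 0 < p + 2 * s * ξ s := fun s hs => (hall s hs).2.2.2.2.2.1
  obtain ⟨hsξ, hsζ⟩ := smooth_sol p hp ξ ζ hξ hζ hδ h1' h2' h3'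
  refine ⟨δ, ξ, ζ, hδ, hsξ, hsζ, ?_, ?_, ?_⟩
  · intro s hs
    have hd : HasDerivAt (fun s => 1 + ∫ t in (0 : ℝ)..s, Mc t (ξ t) (ζ t))
        (Mc s (ξ s) (ζ s)) s := by
      have := (intervalIntegral.integral_hasDerivAt_right (hMcc.intervalIntegrable 0 s)
        hMcc.stronglyMeasurable.stronglyMeasurableAtFilter hMcc.continuousAt)
      simpa using this.const_add 1
    rw [← hMc s hs]
    have he : ξ = fun s => 1 + ∫ t in (0 : ℝ)..s, Mc t (ξ t) (ζ t) := funext h1
    rw [← he] at hd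
    exact hd
  · intro s hs
    have he : ζ = T p (fun t => Nc p t (ξ t) (ζ t)) := funext h2
    rw [← hNc s hs]
    rcases eq_or_ne s 0 with rfl | h0
    · have hz := T_zero p (fun t => Nc p t (ξ t) (ζ t))
      rw [← he] at hz
      have hpp : (p : ℝ) + 2 ≠ 0 := by positivity
      have hz' := (eq_div_iff hpp).1 hz
      rw [mul_zero, zero_mul, zero_add, mul_comm]
      exact hz'
    · have hd := T_hasDerivAt p hNcc h0
      rw [← he] at hd
      rw [hd.deriv]
      field_simp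
      ring
  · intro s hs
    obtain ⟨a1, a2, a3, a4, a5, a6, a7⟩ := hall s hs
    exact ⟨a1, a5, a6⟩

end Vale.Agent.H6.AB
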