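import Mathlib

/-!
# P252, part A: definitions for the singular ODE system
-/

namespace Vale.Agent.H6.AB

open MeasureTheory

/-- `T_p f (s) = ∫_0^1 σ^(p+1) f(s σ²) dσ`, the inverse of `2 s d/ds + (p+2)`. -/
noncomputable def T (p : ℕ) (f : ℝ → ℝ) (s : ℝ) : ℝ :=
  ∫ σ in (0 : ℝ)..1, σ ^ (p + 1) * f (s * σ ^ 2)

/-- the nonlinearity -/
noncomputable def Nf (p s a b : ℝ) : ℝ :=
  ((2 * p + 3) * a + s * ((4 * p + 9) * a * b + 2 * a ^ 2 - p ^ 2 * b ^ 2) +
    s ^ 2 * (6 * a * b ^ 2 + 2 * a ^ 2 * b)) / (p + 2 * s * a)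

/-- clipped `s` -/
noncomputable def tau (s : ℝ) : ℝ := max s (-1)

/-- clipped first unknown -/
noncomputable def ba (s x : ℝ) : ℝ := max 0 (min x (9 / (8 + 2 * tau s)))

/-- clipped second unknown -/
noncomputable def bb (s x z : ℝ) : ℝ := max 0 (min z (5 / 9 * ba s x))

/-- clipped nonlinearities -/
noncomputable def Nc (p s x z : ℝ) : ℝ := Nf p (tau s) (ba s x) (bb s x z)

/-- clipped nonlinearities -/
noncomputable def Mc (s x z : ℝ) : ℝ := ba s x * (bb s x z - ba s x) / 2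

/-- `R = ψ'/ψ` -/
noncomputable def Rf (p s x z : ℝ) : ℝ :=
  -((p + 2) * x * (p + 1 + 2 * s * z + 2 * s * x)) / (2 * (p + 2 * s * x))

end Vale.Agent.H6.AB
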