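import Vale.Agent.H6.AB.Defs

/-!
# P252, part B: definitions for the symmetric ansatz `u = √(G(|x'|²) + x_o²)`
-/

namespace Vale.Agent.H6.AB

section

variable {ι : Type*} [Fintype ι] [DecidableEq ι]

/-- the vector `x` with the coordinate `o` removed (set to zero) -/
def qv (o : ι) (x : ι → ℝ) (i : ι) : ℝ := if i = o then 0 else x i

/-- the unit vector `e_o` -/
def ev (o : ι) (i : ι) : ℝ := if i = o then 1 else 0

/-- `S(x) = ∑_{i ≠ o} x_i²` -/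
def Sf (o : ι) (x : ι → ℝ) : ℝ := ∑ i, qv o x i ^ 2

/-- the ansatz -/
noncomputable def uf (o : ι) (G : ℝ → ℝ) (x : ι → ℝ) : ℝ := Real.sqrt (G (Sf o x) + x o ^ 2)

/-- matrices `a (1 - e eᵀ) + α q qᵀ + β (q eᵀ + e qᵀ) + γ e eᵀ` -/
def FM (o : ι) (q : ι → ℝ) (a α β γ : ℝ) : Matrix ι ι ℝ := fun i j =>
  a * ((if i = j then 1 else 0) - ev o i * ev o j) + α * (q i * q j) +
    β * (q i * ev o j + ev o i * q j) + γ * (ev o i * ev o j)

end

/-- `B̃ = G (G' + 2 s G'') - s G'²` -/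
def Bt (G G1 G2 : ℝ → ℝ) (s : ℝ) : ℝ := G s * (G1 s + 2 * s * G2 s) - s * G1 s ^ 2

end Vale.Agent.H6.AB
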