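import Vale.Agent.H6.AB.BDefs

/-!
# P252, row C1: first-order calculus of the ansatz
-/

namespace Vale.Agent.H6.AB

open Set
open scoped ContDiff

section

variable {ι : Type*} [Fintype ι] [DecidableEq ι]

/-- `f` is differentiable at `x` with partial derivatives `g i`. -/
def HG (f : (ι → ℝ) → ℝ) (g : ι → ℝ) (x : ι → ℝ) : Prop :=
  ∃ L : (ι → ℝ) →L[ℝ] ℝ, HasFDerivAt f L x ∧ ∀ i, L (Pi.single i 1) = g i

namespace HG

variable {f f' : (ι → ℝ) → ℝ} {g g' : ι → ℝ} {x : ι → ℝ}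

theorem pd_eq (h : HG f g x) (i : ι) : pd i f x = g i := by
  obtain ⟨L, hL, hg⟩ := h
  rw [pd, hL.fderiv, hg]

theorem congr (h : HG f g x) (hg : ∀ i, g i = g' i) : HG f g' x := by
  obtain ⟨L, hL, hL'⟩ := h
  exact ⟨L, hL, fun i => by rw [hL', hg]⟩

theorem const (c : ℝ) : HG (fun _ : ι → ℝ => c) (fun _ => 0) x :=
  ⟨0, hasFDerivAt_const c x, fun _ => rfl⟩

theorem coord (j : ι) : HG (fun y : ι → ℝ => y j) (fun i => if i = j then 1 else 0) x := by
  refine ⟨ContinuousLinearMap.proj j, ?_, fun i => ?_⟩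
  · exact (ContinuousLinearMap.proj (R := ℝ) (φ := fun _ : ι => ℝ) j).hasFDerivAt
  · simp only [ContinuousLinearMap.proj_apply, Pi.single_apply]
    by_cases h : i = j
    · simp [h]
    · simp [h, Ne.symm h]

theorem add (h : HG f g x) (h' : HG f' g' x) :
    HG (fun y => f y + f' y) (fun i => g i + g' i) x := by
  obtain ⟨L, hL, hg⟩ := h
  obtain ⟨L', hL', hg'⟩ := h'
  exact ⟨L + L', hL.add hL', fun i => by simp [hg, hg']⟩

theorem mul (h : HG f g x) (h' : HG f' g' x) :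
    HG (fun y => f y * f' y) (fun i => g i * f' x + f x * g' i) x := by
  obtain ⟨L, hL, hg⟩ := h
  obtain ⟨L', hL', hg'⟩ := h'
  refine ⟨_, hL.mul hL', fun i => ?_⟩
  simp only [ContinuousLinearMap.add_apply, ContinuousLinearMap.smul_apply, hg, hg', smul_eq_mul]
  ring

theorem comp (h : HG f g x) {φ : ℝ → ℝ} {d : ℝ} (hφ : HasDerivAt φ d (f x)) :
    HG (fun y => φ (f y)) (fun i => d * g i) x := by
  obtain ⟨L, hL, hg⟩ := h
  refine ⟨d • L, hφ.comp_hasFDerivAt x hL, fun i => ?_⟩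
  simp [hg]

theorem sum {κ : Type*} (s : Finset κ) {F : κ → (ι → ℝ) → ℝ} {g : κ → ι → ℝ}
    (h : ∀ k ∈ s, HG (F k) (g k) x) :
    HG (fun y => ∑ k ∈ s, F k y) (fun i => ∑ k ∈ s, g k i) x := by
  classical
  induction s using Finset.induction_on with
  | empty => simpa using const (x := x) (0 : ℝ)
  | insert a s ha ih =>
    have h1 := (h a (Finset.mem_insert_self a s)).add
      (ih fun k hk => h k (Finset.mem_insert_of_mem hk))
    simpa [Finset.sum_insert ha] using h1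

end HG

theorem Sf_nonneg (o : ι) (x : ι → ℝ) : 0 ≤ Sf o x :=
  Finset.sum_nonneg fun _ _ => sq_nonneg _

theorem HG_qv (o j : ι) (x : ι → ℝ) :
    HG (fun y => qv o y j) (fun i => (if i = j then 1 else 0) - ev o i * ev o j) x := by
  by_cases hj : j = o
  · subst hj
    have : (fun y : ι → ℝ => qv j y j) = fun _ => 0 := by
      funext y; simp [qv]
    rw [this]
    refine (HG.const (x := x) 0).congr fun i => ?_
    by_cases hi : i = j <;> simp [ev, hi]
  · have : (fun y : ι → ℝ => qv o y j) = fun y => y j := by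
      funext y; simp [qv, hj]
    rw [this]
    refine (HG.coord (x := x) j).congr fun i => ?_
    simp [ev, hj]

theorem HG_Sf (o : ι) (x : ι → ℝ) : HG (Sf o) (fun i => 2 * qv o x i) x := by
  have h : HG (fun y => ∑ j, qv o y j * qv o y j) _ x :=
    HG.sum Finset.univ fun j _ => (HG_qv o j x).mul (HG_qv o j x)
  have hS : Sf o = fun y => ∑ j, qv o y j * qv o y j := by
    funext y; simp [Sf, sq]
  rw [hS]
  refine h.congr fun i => ?_
  have : ∀ j, ((if i = j then (1 : ℝ) else 0) - ev o i * ev o j) * qv o x j +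
      qv o x j * ((if i = j then (1 : ℝ) else 0) - ev o i * ev o j) =
      if i = j then 2 * qv o x j else 0 := by
    intro j
    by_cases hj : j = o
    · simp [qv, hj]
    · by_cases hij : i = j
      · simp [ev, hj, hij]; ring
      · simp [ev, hj, hij]
  simp only [this]
  simp

/-- Row C1: first derivatives of `S`. -/
theorem Sf_hasFDerivAt (o : ι) (x : ι → ℝ) :
    ∃ L : (ι → ℝ) →L[ℝ] ℝ, HasFDerivAt (Sf o) L x ∧ ∀ i, L (Pi.single i 1) = 2 * qv o x i :=
  HG_Sf o x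

theorem Sf_contDiff (o : ι) : ContDiff ℝ ∞ (Sf o) := by
  have h : ∀ j : ι, ContDiff ℝ ∞ (fun x : ι → ℝ => qv o x j ^ 2) := by
    intro j
    by_cases hj : j = o
    · have : (fun x : ι → ℝ => qv o x j ^ 2) = fun _ => 0 := by
        funext y; simp [qv, hj]
      rw [this]; exact contDiff_const
    · have : (fun x : ι → ℝ => qv o x j ^ 2) = fun y => y j ^ 2 := by
        funext y; simp [qv, hj]
      rw [this]
      exact (contDiff_apply ℝ ℝ j).pow 2
  have : Sf o = fun x => ∑ j, qv o x j ^ 2 := rfl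
  rw [this]
  exact ContDiff.sum fun j _ => h j

/-- Row C1: smoothness of the ansatz. -/
theorem uf_contDiff (o : ι) (G : ℝ → ℝ) {δ : ℝ} (hδ : 0 < δ) (hG : ContDiffOn ℝ ∞ G (Ioi (-δ)))
    (hpos : ∀ s, -δ < s → 0 < G s) : ContDiff ℝ ∞ (uf o G) := by
  have hS : ∀ x : ι → ℝ, Sf o x ∈ Ioi (-δ) := fun x => by
    have := Sf_nonneg o x
    simp only [mem_Ioi]; linarith
  have h1 : ContDiff ℝ ∞ (fun x : ι → ℝ => G (Sf o x) + x o ^ 2) := by
    refine ContDiff.add ?_ ((contDiff_apply ℝ ℝ o).pow 2)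
    rw [contDiff_iff_contDiffAt]
    intro x
    exact ((hG.contDiffAt (Ioi_mem_nhds (hS x))).comp x (Sf_contDiff o).contDiffAt)
  refine h1.sqrt fun x => ?_
  have := hpos _ (hS x)
  positivity

theorem uf_pos (o : ι) (G : ℝ → ℝ) {δ : ℝ} (hδ : 0 < δ)
    (hpos : ∀ s, -δ < s → 0 < G s) (x : ι → ℝ) : 0 < uf o G x := by
  have h1 := Sf_nonneg o x
  have h2 := hpos (Sf o x) (by linarith)
  rw [uf]
  positivity

theorem uf_sq (o : ι) (G : ℝ → ℝ) {δ : ℝ} (hδ : 0 < δ)
    (hpos : ∀ s, -δ < s → 0 < G s) (x : ι → ℝ) : uf o G x ^ 2 = G (Sf o x) + x o ^ 2 := by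
  have h1 := Sf_nonneg o x
  have h2 := hpos (Sf o x) (by linarith)
  rw [uf, Real.sq_sqrt (by positivity)]

theorem HG_uf (o : ι) (G G1 : ℝ → ℝ) {δ : ℝ} (hδ : 0 < δ)
    (hG : ∀ s, -δ < s → HasDerivAt G (G1 s) s)
    (hpos : ∀ s, -δ < s → 0 < G s) (x : ι → ℝ) :
    HG (uf o G) (fun j => (G1 (Sf o x) * qv o x j + x o * ev o j) / uf o G x) x := by
  have h1 := Sf_nonneg o x
  have h2 := hpos (Sf o x) (by linarith)
  have hA : 0 < G (Sf o x) + x o ^ 2 := by positivity
  have hGx := hG (Sf o x) (by linarith)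
  have h3 : HG (fun y : ι → ℝ => G (Sf o y) + y o * y o) _ x :=
    ((HG_Sf o x).comp hGx).add ((HG.coord (x := x) o).mul (HG.coord (x := x) o))
  have hu : uf o G = fun y => Real.sqrt (G (Sf o y) + y o * y o) := by
    funext y; simp [uf, sq]
  have hA' : G (Sf o x) + x o * x o ≠ 0 := by rw [← sq]; exact hA.ne'
  have h4 := h3.comp (Real.hasDerivAt_sqrt hA')
  rw [hu]
  refine h4.congr fun i => ?_
  have h5 : 0 < Real.sqrt (G (Sf o x) + x o * x o) := Real.sqrt_pos.2 (by rw [← sq]; exact hA)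
  simp only [ev]
  field_simp
  by_cases hi : i = o <;> simp [hi] <;> ring

/-- Row C1: first partial derivatives of `u`. -/
theorem pd_uf (o : ι) (G G1 : ℝ → ℝ) {δ : ℝ} (hδ : 0 < δ) (hG : ∀ s, -δ < s → HasDerivAt G (G1 s) s)
    (hpos : ∀ s, -δ < s → 0 < G s) (j : ι) :
    pd j (uf o G) = fun x => (G1 (Sf o x) * qv o x j + x o * ev o j) / uf o G x := by
  funext x
  exact (HG_uf o G G1 hδ hG hpos x).pd_eq j

end

end Vale.Agent.H6.AB
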