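import Vale.Agent.H6.AB.C1

/-!
# P252, row C2: Hessian of the ansatz
-/

namespace Vale.Agent.H6.AB

open Set
open scoped ContDiff

section

variable {ι : Type*} [Fintype ι] [DecidableEq ι]

/-- the numerator of the first derivatives -/
theorem HG_num (o : ι) (G1 G2 : ℝ → ℝ) {δ : ℝ} (hδ : 0 < δ)
    (hG1 : ∀ s, -δ < s → HasDerivAt G1 (G2 s) s) (j : ι) (x : ι → ℝ) :
    HG (fun y => G1 (Sf o y) * qv o y j + y o * ev o j)
      (fun i => 2 * G2 (Sf o x) * (qv o x i * qv o x j) +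
        G1 (Sf o x) * ((if i = j then 1 else 0) - ev o i * ev o j) + ev o i * ev o j) x := by
  have h1 := Sf_nonneg o x
  have h2 := hG1 (Sf o x) (by linarith)
  have h3 := (((HG_Sf o x).comp h2).mul (HG_qv o j x)).add
    ((HG.coord (x := x) o).mul (HG.const (x := x) (ev o j)))
  refine h3.congr fun i => ?_
  simp only [ev]
  ring

/-- Row C2: Hessian of `u`. -/
theorem hess_uf (o : ι) (G G1 G2 : ℝ → ℝ) {δ : ℝ} (hδ : 0 < δ)
    (hG : ∀ s, -δ < s → HasDerivAt G (G1 s) s) (hG1 : ∀ s, -δ < s → HasDerivAt G1 (G2 s) s)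
    (hpos : ∀ s, -δ < s → 0 < G s) (x : ι → ℝ) :
    hess (uf o G) x = FM o (qv o x) (G1 (Sf o x) / uf o G x)
      ((2 * G2 (Sf o x) - G1 (Sf o x) ^ 2 / uf o G x ^ 2) / uf o G x)
      (-(G1 (Sf o x) * x o) / uf o G x ^ 3)
      (G (Sf o x) / uf o G x ^ 3) := by
  funext i j
  have hu := uf_pos o G hδ hpos x
  have husq := uf_sq o G hδ hpos x
  have hGe : G (Sf o x) = uf o G x ^ 2 - x o ^ 2 := by linarith
  rw [hess, pd_uf o G G1 hδ hG hpos j]
  have h1 : HG (fun y => (G1 (Sf o y) * qv o y j + y o * ev o j) * (uf o G y)⁻¹) _ x :=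
    (HG_num o G1 G2 hδ hG1 j x).mul
      ((HG_uf o G G1 hδ hG hpos x).comp (hasDerivAt_inv hu.ne'))
  have h2 : (fun y => (G1 (Sf o y) * qv o y j + y o * ev o j) / uf o G y) =
      fun y => (G1 (Sf o y) * qv o y j + y o * ev o j) * (uf o G y)⁻¹ := by
    funext y; rw [div_eq_mul_inv]
  rw [h2, h1.pd_eq i, FM, hGe]
  generalize uf o G x = u at hu
  have hu' := hu.ne'
  field_simp
  ring

end

end Vale.Agent.H6.AB
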