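import Vale.Agent.H6.AB.C2

/-!
# P252, row C3: Hessian of `u ^ (p + 2) ψ(S)`
-/

namespace Vale.Agent.H6.AB

open Set
open scoped ContDiff

section

variable {ι : Type*} [Fintype ι] [DecidableEq ι]

theorem HG.pow {f : (ι → ℝ) → ℝ} {g : ι → ℝ} {x : ι → ℝ} (h : HG f g x) (n : ℕ) :
    HG (fun y => f y ^ n) (fun i => n * f x ^ (n - 1) * g i) x :=
  h.comp (hasDerivAt_pow n (f x))

/-- Row C3: Hessian of `u^(p+2) ψ(S)`. -/
theorem hess_w (o : ι) (p : ℕ) (G G1 G2 ψ ψ1 ψ2 : ℝ → ℝ) {δ : ℝ} (hδ : 0 < δ)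
    (hG : ∀ s, -δ < s → HasDerivAt G (G1 s) s) (hG1 : ∀ s, -δ < s → HasDerivAt G1 (G2 s) s)
    (hψ : ∀ s, -δ < s → HasDerivAt ψ (ψ1 s) s) (hψ1 : ∀ s, -δ < s → HasDerivAt ψ1 (ψ2 s) s)
    (hpos : ∀ s, -δ < s → 0 < G s) (x : ι → ℝ) :
    hess (fun x => uf o G x ^ (p + 2) * ψ (Sf o x)) x =
      let u := uf o G x
      let s := Sf o x
      FM o (qv o x)
        ((p + 2) * u ^ p * ψ s * G1 s + 2 * u ^ (p + 2) * ψ1 s)
        ((p + 1) * (p + 2) * u ^ p * ψ s * (G1 s ^ 2 / u ^ 2) +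
          (p + 2) * u ^ p * ψ s * (2 * G2 s - G1 s ^ 2 / u ^ 2) +
          4 * (p + 2) * u ^ p * ψ1 s * G1 s + 4 * u ^ (p + 2) * ψ2 s)
        ((p + 1) * (p + 2) * u ^ p * ψ s * (G1 s * x o / u ^ 2) -
          (p + 2) * u ^ p * ψ s * (G1 s * x o / u ^ 2) + 2 * (p + 2) * u ^ p * ψ1 s * x o)
        ((p + 1) * (p + 2) * u ^ p * ψ s * (x o ^ 2 / u ^ 2) +
          (p + 2) * u ^ p * ψ s * (G s / u ^ 2)) := by
  funext i j
  have hS : ∀ y : ι → ℝ, -δ < Sf o y := fun y => by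
    have := Sf_nonneg o y
    linarith
  -- first derivatives
  have h1 : pd j (fun x => uf o G x ^ (p + 2) * ψ (Sf o x)) = fun y =>
      ((p : ℝ) + 2) * (uf o G y ^ p * ((G1 (Sf o y) * qv o y j + y o * ev o j) * ψ (Sf o y))) +
        2 * (uf o G y ^ (p + 2) * (ψ1 (Sf o y) * qv o y j)) := by
    funext y
    have hu := (uf_pos o G hδ hpos y).ne'
    have h := ((HG_uf o G G1 hδ hG hpos y).pow (p + 2)).mul ((HG_Sf o y).comp (hψ _ (hS y)))
    rw [h.pd_eq j]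
    have e : p + 2 - 1 = p + 1 := by omega
    rw [e]
    push_cast
    field_simp
    ring
  rw [hess, h1]
  have hu := uf_pos o G hδ hpos x
  have husq := uf_sq o G hδ hpos x
  have hGe : G (Sf o x) = uf o G x ^ 2 - x o ^ 2 := by linarith
  have hU := HG_uf o G G1 hδ hG hpos x
  have hA := (hU.pow p).mul ((HG_num o G1 G2 hδ hG1 j x).mul ((HG_Sf o x).comp (hψ _ (hS x))))
  have hB := (hU.pow (p + 2)).mul (((HG_Sf o x).comp (hψ1 _ (hS x))).mul (HG_qv o j x))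
  have hC := ((HG.const (x := x) ((p : ℝ) + 2)).mul hA).add ((HG.const (x := x) (2 : ℝ)).mul hB)
  rw [hC.pd_eq i]
  simp only [FM]
  rw [hGe]
  have e : p + 2 - 1 = p + 1 := by omega
  rw [e]
  have ep : (p : ℝ) * uf o G x ^ (p - 1) = p * (uf o G x ^ p / uf o G x) := by
    rcases p with _ | k
    · simp
    · have : k + 1 - 1 = k := by omega
      rw [this, pow_succ]
      field_simp
  rw [ep]
  generalize uf o G x = u at hu
  have hu' := hu.ne'
  push_cast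
  field_simp
  ring

end

end Vale.Agent.H6.AB
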