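import Vale.Agent.H6.AB.BDefs

namespace Vale.Agent.H6.AB

open Matrix

section

variable {ι : Type*} [Fintype ι] [DecidableEq ι]

/-- Row M2: determinant. -/
theorem FM_det (o : ι) (q : ι → ℝ) (hq : q o = 0) (s : ℝ) (hs : ∑ i, q i ^ 2 = s)
    (p : ℕ) (hp : 1 ≤ p) (hcard : Fintype.card ι = p + 1)
    (a α β γ : ℝ) (ha : a ≠ 0) :
    (FM o q a α β γ).det = a ^ (p - 1) * ((a + α * s) * γ - β ^ 2 * s) := by
  classical
  obtain ⟨A, hA0, hA1⟩ : ∃ A : Matrix ι (Fin 2) ℝ, (∀ i, A i 0 = q i) ∧ (∀ i, A i 1 = ev o i) :=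
    ⟨Matrix.of fun i k => if k = 0 then q i else ev o i, fun i => by simp, fun i => by simp⟩
  obtain ⟨B, hB0, hB1⟩ : ∃ B : Matrix (Fin 2) ι ℝ,
      (∀ j, B 0 j = α / a * q j + β / a * ev o j) ∧
      (∀ j, B 1 j = β / a * q j + (γ - a) / a * ev o j) :=
    ⟨Matrix.of fun k j => if k = 0 then α / a * q j + β / a * ev o j else
      β / a * q j + (γ - a) / a * ev o j, fun i => by simp, fun i => by simp⟩
  have hFM : FM o q a α β γ = a • (1 + A * B) := by
    ext i j
    rw [Matrix.smul_apply, Matrix.add_apply, Matrix.one_apply, Matrix.mul_apply,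
      Fin.sum_univ_two, hA0, hA1, hB0, hB1, smul_eq_mul]
    unfold FM
    field_simp
    ring
  have hqe : ∑ i, q i * ev o i = 0 := by simp [ev, hq]
  have heq : ∑ i, ev o i * q i = 0 := by simp [ev, hq]
  have hee : ∑ i, ev o i * ev o i = 1 := by simp [ev]
  have hqq : ∑ i, q i * q i = s := by rw [← hs]; exact Finset.sum_congr rfl fun i _ => by ring
  have h00 : (B * A) 0 0 = α / a * s := by
    rw [Matrix.mul_apply, Finset.sum_congr rfl fun x _ => by rw [hB0, hA0]]
    calc ∑ x, (α / a * q x + β / a * ev o x) * q x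
        = α / a * ∑ x, q x * q x + β / a * ∑ x, ev o x * q x := by
          rw [Finset.mul_sum, Finset.mul_sum, ← Finset.sum_add_distrib]
          exact Finset.sum_congr rfl fun i _ => by ring
      _ = _ := by rw [hqq, heq]; ring
  have h01 : (B * A) 0 1 = β / a := by
    rw [Matrix.mul_apply, Finset.sum_congr rfl fun x _ => by rw [hB0, hA1]]
    calc ∑ x, (α / a * q x + β / a * ev o x) * ev o x
        = α / a * ∑ x, q x * ev o x + β / a * ∑ x, ev o x * ev o x := by
          rw [Finset.mul_sum, Finset.mul_sum, ← Finset.sum_add_distrib]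
          exact Finset.sum_congr rfl fun i _ => by ring
      _ = _ := by rw [hqe, hee]; ring
  have h10 : (B * A) 1 0 = β / a * s := by
    rw [Matrix.mul_apply, Finset.sum_congr rfl fun x _ => by rw [hB1, hA0]]
    calc ∑ x, (β / a * q x + (γ - a) / a * ev o x) * q x
        = β / a * ∑ x, q x * q x + (γ - a) / a * ∑ x, ev o x * q x := by
          rw [Finset.mul_sum, Finset.mul_sum, ← Finset.sum_add_distrib]
          exact Finset.sum_congr rfl fun i _ => by ring
      _ = _ := by rw [hqq, heq]; ring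
  have h11 : (B * A) 1 1 = (γ - a) / a := by
    rw [Matrix.mul_apply, Finset.sum_congr rfl fun x _ => by rw [hB1, hA1]]
    calc ∑ x, (β / a * q x + (γ - a) / a * ev o x) * ev o x
        = β / a * ∑ x, q x * ev o x + (γ - a) / a * ∑ x, ev o x * ev o x := by
          rw [Finset.mul_sum, Finset.mul_sum, ← Finset.sum_add_distrib]
          exact Finset.sum_congr rfl fun i _ => by ring
      _ = _ := by rw [hqe, hee]; ring
  rw [hFM, Matrix.det_smul, Matrix.det_one_add_mul_comm, Matrix.det_fin_two, hcard]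
  simp only [Matrix.add_apply, Matrix.one_apply_eq, h00, h11, h01, h10]
  rw [Matrix.one_apply_ne (by decide), Matrix.one_apply_ne (by decide)]
  obtain ⟨m, rfl⟩ : ∃ m, p = m + 1 := ⟨p - 1, by omega⟩
  rw [Nat.add_sub_cancel, pow_succ, pow_succ]
  field_simp
  ring

end

end Vale.Agent.H6.AB
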