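import Vale.Agent.H6.AB.BDefs

namespace Vale.Agent.H6.AB

open Matrix

section

variable {ι : Type*} [Fintype ι] [DecidableEq ι]

/-- Row M3: positive definiteness. -/
theorem FM_posDef (o : ι) (q : ι → ℝ) (hq : q o = 0) (s : ℝ) (hs : ∑ i, q i ^ 2 = s)
    (a α β γ : ℝ) (ha : 0 < a) (hγ : 0 < γ) (hd : 0 < (a + α * s) * γ - β ^ 2 * s) :
    (FM o q a α β γ).PosDef := by
  have hsymm : (FM o q a α β γ).IsHermitian := by
    ext i j
    simp only [Matrix.conjTranspose_apply, star_trivial, FM]
    by_cases hij : i = j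
    · subst hij; ring
    · rw [if_neg hij, if_neg (Ne.symm hij)]; ring
  refine Matrix.PosDef.of_dotProduct_mulVec_pos hsymm ?_
  intro v hv
  set m : ℝ := ∑ i, q i * v i with hm
  set r : ℝ := ∑ i, v i ^ 2 with hr
  have hform : star v ⬝ᵥ (FM o q a α β γ).mulVec v =
      a * (r - v o ^ 2) + α * m ^ 2 + 2 * β * m * v o + γ * v o ^ 2 := by
    have hev : ∑ i, ev o i * v i = v o := by simp [ev]
    have hrow : ∀ i, (FM o q a α β γ).mulVec v i =
        a * (v i - ev o i * v o) + α * (q i * m) + β * (q i * v o + ev o i * m) +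
          γ * (ev o i * v o) := by
      intro i
      simp only [Matrix.mulVec, dotProduct, FM]
      have : ∀ j, (a * ((if i = j then (1 : ℝ) else 0) - ev o i * ev o j) + α * (q i * q j) +
          β * (q i * ev o j + ev o i * q j) + γ * (ev o i * ev o j)) * v j =
          a * ((if i = j then (1 : ℝ) else 0) * v j) - a * ev o i * (ev o j * v j) +
          α * q i * (q j * v j) + β * q i * (ev o j * v j) + β * ev o i * (q j * v j) +
          γ * ev o i * (ev o j * v j) := fun j => by ring
      rw [Finset.sum_congr rfl fun j _ => this j]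
      simp only [Finset.sum_add_distrib, Finset.sum_sub_distrib, ← Finset.mul_sum]
      rw [hev, ← hm]
      simp only [ite_mul, one_mul, zero_mul, Finset.sum_ite_eq, Finset.mem_univ, if_true]
      ring
    simp only [dotProduct, star_trivial]
    rw [Finset.sum_congr rfl fun i _ => by rw [hrow i]]
    have : ∀ i, v i * (a * (v i - ev o i * v o) + α * (q i * m) + β * (q i * v o + ev o i * m) +
          γ * (ev o i * v o)) = a * (v i ^ 2) - a * v o * (ev o i * v i) + α * m * (q i * v i) +
          β * v o * (q i * v i) + β * m * (ev o i * v i) + γ * v o * (ev o i * v i) :=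
      fun i => by ring
    rw [Finset.sum_congr rfl fun i _ => this i]
    simp only [Finset.sum_add_distrib, Finset.sum_sub_distrib, ← Finset.mul_sum]
    rw [hev, ← hm, ← hr]
    ring
  rw [hform]
  -- Cauchy-Schwarz
  have hs0 : 0 ≤ s := by rw [← hs]; exact Finset.sum_nonneg fun _ _ => sq_nonneg _
  have hsplit : r - v o ^ 2 = ∑ i, (if i = o then 0 else v i) ^ 2 := by
    have h1 : ∀ i, v i ^ 2 = (if i = o then 0 else v i) ^ 2 + (if i = o then v o ^ 2 else 0) := by
      intro i
      by_cases h : i = o
      · subst h; simp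
      · simp [h]
    rw [hr, Finset.sum_congr rfl fun i _ => h1 i, Finset.sum_add_distrib]
    simp
  have hm' : m = ∑ i, q i * (if i = o then 0 else v i) := by
    rw [hm]
    refine Finset.sum_congr rfl fun i _ => ?_
    by_cases h : i = o
    · subst h; simp [hq]
    · simp [h]
  have hCS : m ^ 2 ≤ s * (r - v o ^ 2) := by
    rw [hm', hsplit, ← hs]
    exact Finset.sum_mul_sq_le_sq_mul_sq _ _ _
  have hr0 : 0 ≤ r - v o ^ 2 := by rw [hsplit]; exact Finset.sum_nonneg fun _ _ => sq_nonneg _
  have hne : 0 < (r - v o ^ 2) ∨ 0 < v o ^ 2 := by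
    by_contra hcon
    push Not at hcon
    obtain ⟨c1, c2⟩ := hcon
    have e2 : v o = 0 := by
      have := le_antisymm c2 (sq_nonneg _)
      exact pow_eq_zero_iff (two_ne_zero) |>.1 this
    have e1 : r - v o ^ 2 = 0 := le_antisymm c1 hr0
    apply hv
    funext i
    rw [hsplit] at e1
    have := (Finset.sum_eq_zero_iff_of_nonneg (fun i _ => sq_nonneg _)).1 e1 i (Finset.mem_univ i)
    by_cases h : i = o
    · rw [h, e2]; rfl
    · rw [if_neg h] at this
      simpa using this
  set ρ := r - v o ^ 2 with hρ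
  rcases eq_or_lt_of_le hs0 with h0 | hspos
  · have hm0 : m = 0 := by
      rw [← h0] at hCS
      have : m ^ 2 ≤ 0 := by linarith
      exact pow_eq_zero_iff (two_ne_zero) |>.1 (le_antisymm this (sq_nonneg _))
    rw [hm0]
    rcases hne with h | h
    · have := mul_pos ha h
      have := mul_nonneg hγ.le (sq_nonneg (v o))
      nlinarith
    · have := mul_nonneg ha.le hr0
      have := mul_pos hγ h
      nlinarith
  · -- multiply by s γ
    have hkey : s * γ * (a * ρ + α * m ^ 2 + 2 * β * m * v o + γ * v o ^ 2) =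
        γ * a * (s * ρ - m ^ 2) + s * (γ * v o + β * m) ^ 2 +
          ((a + α * s) * γ - β ^ 2 * s) * m ^ 2 := by ring
    have hpos : 0 < γ * a * (s * ρ - m ^ 2) + s * (γ * v o + β * m) ^ 2 +
          ((a + α * s) * γ - β ^ 2 * s) * m ^ 2 := by
      have t1 : 0 ≤ γ * a * (s * ρ - m ^ 2) :=
        mul_nonneg (mul_pos hγ ha).le (by linarith)
      have t2 : 0 ≤ s * (γ * v o + β * m) ^ 2 := mul_nonneg hspos.le (sq_nonneg _)
      have t3 : 0 ≤ ((a + α * s) * γ - β ^ 2 * s) * m ^ 2 := mul_nonneg hd.le (sq_nonneg _)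
      by_cases hm0 : m = 0
      · rw [hm0] at t1 t2 t3 ⊢
        rcases hne with h | h
        · have : 0 < γ * a * (s * ρ - 0 ^ 2) := by
            have := mul_pos hspos h
            have h2 := mul_pos hγ ha
            have : 0 < γ * a * (s * ρ) := mul_pos h2 this
            simpa using this
          linarith
        · have : 0 < s * (γ * v o + β * 0) ^ 2 := by
            have h3 : 0 < s * (γ ^ 2 * v o ^ 2) := mul_pos hspos (mul_pos (pow_pos hγ 2) h)
            calc 0 < s * (γ ^ 2 * v o ^ 2) := h3
              _ = s * (γ * v o + β * 0) ^ 2 := by ring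
          linarith
      · have : 0 < ((a + α * s) * γ - β ^ 2 * s) * m ^ 2 :=
          mul_pos hd (by positivity)
        linarith
    rw [← hkey] at hpos
    exact (pos_iff_pos_of_mul_pos hpos).1 (mul_pos hspos hγ)
end

end Vale.Agent.H6.AB
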