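import Vale.Agent.H6.AB.M1
import Vale.Agent.H6.AB.M2
import Vale.Agent.H6.AB.M3
import Vale.Agent.H6.AB.C2
import Vale.Agent.H6.AB.C3

namespace Vale.Agent.H6.AB

open MeasureTheory Set Matrix
open scoped ContDiff

section

variable {ι : Type*} [Fintype ι] [DecidableEq ι]

theorem Sf_nonneg' (o : ι) (x : ι → ℝ) : 0 ≤ Sf o x := Finset.sum_nonneg fun _ _ => sq_nonneg _

/-- The algebraic identity for the determinant factor. -/
theorem alg_det (u g g1 g2 s t : ℝ) (hu : 0 < u) (hg : g = u ^ 2 - t ^ 2) :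
    (g1 / u + (2 * g2 - g1 ^ 2 / u ^ 2) / u * s) * (g / u ^ 3) - (-(g1 * t) / u ^ 3) ^ 2 * s =
      (g * (g1 + 2 * s * g2) - s * g1 ^ 2) / u ^ 4 := by
  subst hg
  field_simp
  ring

/-- inverse identities -/
theorem alg_inv (u g g1 g2 s t B : ℝ) (hu : 0 < u) (hg : g = u ^ 2 - t ^ 2) (hg1 : 0 < g1)
    (hB : 0 < B) (hBd : B = g * (g1 + 2 * s * g2) - s * g1 ^ 2) :
    (g1 / u) * (u / g1) = 1 ∧
    (g1 / u) * (u * (g1 ^ 2 - 2 * g * g2) / (g1 * B)) +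
      ((2 * g2 - g1 ^ 2 / u ^ 2) / u) * (u / g1) +
      ((2 * g2 - g1 ^ 2 / u ^ 2) / u) * (u * (g1 ^ 2 - 2 * g * g2) / (g1 * B)) * s +
      (-(g1 * t) / u ^ 3) * (u * g1 * t / B) = 0 ∧
    (g1 / u) * (u * g1 * t / B) + ((2 * g2 - g1 ^ 2 / u ^ 2) / u) * (u * g1 * t / B) * s +
      (-(g1 * t) / u ^ 3) * (u * (1 + (g1 + 2 * s * g2) * t ^ 2 / B)) = 0 ∧
    (-(g1 * t) / u ^ 3) * (u / g1) +
      (-(g1 * t) / u ^ 3) * (u * (g1 ^ 2 - 2 * g * g2) / (g1 * B)) * s +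
      (g / u ^ 3) * (u * g1 * t / B) = 0 ∧
    (-(g1 * t) / u ^ 3) * (u * g1 * t / B) * s +
      (g / u ^ 3) * (u * (1 + (g1 + 2 * s * g2) * t ^ 2 / B)) = 1 := by
  have hu' : u ≠ 0 := hu.ne'
  have hg1' : g1 ≠ 0 := hg1.ne'
  have hB' : B ≠ 0 := hB.ne'
  refine ⟨by field_simp, ?_, ?_, ?_, ?_⟩
  · field_simp
    rw [hBd, hg]
    ring
  · field_simp
    rw [hBd, hg]
    ring
  · field_simp
    rw [hBd, hg]
    ring
  · field_simp
    rw [hBd, hg]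
    ring

/-- the contraction -/
theorem alg_trace (p P u g g1 g2 s t B ψ ψ1 ψ2 : ℝ) (hu : 0 < u) (hg : g = u ^ 2 - t ^ 2)
    (hg1 : 0 < g1) (hB : 0 < B) (hBd : B = g * (g1 + 2 * s * g2) - s * g1 ^ 2)
    (aw αw βw γw : ℝ)
    (haw : aw = (p + 2) * P * ψ * g1 + 2 * (P * u ^ 2) * ψ1)
    (hαw : αw = (p + 1) * (p + 2) * P * ψ * (g1 ^ 2 / u ^ 2) +
          (p + 2) * P * ψ * (2 * g2 - g1 ^ 2 / u ^ 2) +
          4 * (p + 2) * P * ψ1 * g1 + 4 * (P * u ^ 2) * ψ2)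
    (hβw : βw = (p + 1) * (p + 2) * P * ψ * (g1 * t / u ^ 2) -
          (p + 2) * P * ψ * (g1 * t / u ^ 2) + 2 * (p + 2) * P * ψ1 * t)
    (hγw : γw = (p + 1) * (p + 2) * P * ψ * (t ^ 2 / u ^ 2) +
          (p + 2) * P * ψ * (g / u ^ 2)) :
    p * ((u / g1) * aw) +
      s * ((u / g1) * αw + (u * (g1 ^ 2 - 2 * g * g2) / (g1 * B)) * aw +
        (u * (g1 ^ 2 - 2 * g * g2) / (g1 * B)) * αw * s + (u * g1 * t / B) * βw) +
      ((u * g1 * t / B) * βw * s + (u * (1 + (g1 + 2 * s * g2) * t ^ 2 / B)) * γw) =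
    P * u ^ 3 / B * (4 * s * g * ψ2 + (2 * g + 4 * (p + 2) * s * g1 + 2 * (p - 1) * B / g1) * ψ1 +
      (p + 1) * (p + 2) * (g1 + 2 * s * g2) * ψ) := by
  have hu' : u ≠ 0 := hu.ne'
  have hg1' : g1 ≠ 0 := hg1.ne'
  have hB' : B ≠ 0 := hB.ne'
  rw [haw, hαw, hβw, hγw]
  field_simp
  rw [hBd, hg]
  ring

/-- Row D: the PDE from the ODE (`n = p + 1`). -/
theorem pde_of_ode (o : ι) (p : ℕ) (hp : 1 ≤ p) (hcard : Fintype.card ι = p + 1)
    (G G1 G2 ψ ψ1 ψ2 : ℝ → ℝ) {δ : ℝ} (hδ : 0 < δ)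
    (hG : ∀ s, -δ < s → HasDerivAt G (G1 s) s) (hG1 : ∀ s, -δ < s → HasDerivAt G1 (G2 s) s)
    (hψ : ∀ s, -δ < s → HasDerivAt ψ (ψ1 s) s) (hψ1 : ∀ s, -δ < s → HasDerivAt ψ1 (ψ2 s) s)
    (hpos : ∀ s, -δ < s → 0 < G s) (hpos1 : ∀ s, -δ < s → 0 < G1 s)
    (hB : ∀ s, -δ < s → 0 < Bt G G1 G2 s)
    (hdef : ∀ s, -δ < s →
      ψ s = (G1 s ^ (p - 1) * Bt G G1 G2 s) ^ (-(((p : ℝ) + 2) / ((p : ℝ) + 3))))
    (hode : ∀ s, -δ < s → 4 * s * G s * ψ2 s +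
      (2 * G s + 4 * (p + 2) * s * G1 s + 2 * (p - 1) * Bt G G1 G2 s / G1 s) * ψ1 s +
      (p + 1) * (p + 2) * (G1 s + 2 * s * G2 s) * ψ s = 0) :
    (∀ x, (hess (uf o G) x).PosDef) ∧ ∀ x, affineMaximalOp (uf o G) x = 0 := by
  have hS : ∀ x : ι → ℝ, -δ < Sf o x := fun x => lt_of_lt_of_le (by linarith) (Sf_nonneg' o x)
  have hupos : ∀ x : ι → ℝ, 0 < uf o G x := by
    intro x
    apply Real.sqrt_pos.2
    have := hpos _ (hS x)
    positivity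
  have husq : ∀ x : ι → ℝ, G (Sf o x) = uf o G x ^ 2 - x o ^ 2 := by
    intro x
    unfold uf
    rw [Real.sq_sqrt]
    · ring
    · have := hpos _ (hS x)
      positivity
  have hq : ∀ x : ι → ℝ, qv o x o = 0 := fun x => by simp [qv]
  have hsum : ∀ x : ι → ℝ, ∑ i, qv o x i ^ 2 = Sf o x := fun x => rfl
  have hH := fun x => hess_uf o G G1 G2 hδ hG hG1 hpos x
  have hdetpos : ∀ x : ι → ℝ, 0 < Bt G G1 G2 (Sf o x) := fun x => hB _ (hS x)
  have hkey : ∀ x : ι → ℝ,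
      (G1 (Sf o x) / uf o G x + (2 * G2 (Sf o x) - G1 (Sf o x) ^ 2 / uf o G x ^ 2) / uf o G x *
        Sf o x) * (G (Sf o x) / uf o G x ^ 3) -
        (-(G1 (Sf o x) * x o) / uf o G x ^ 3) ^ 2 * Sf o x =
      Bt G G1 G2 (Sf o x) / uf o G x ^ 4 := by
    intro x
    rw [alg_det (uf o G x) (G (Sf o x)) (G1 (Sf o x)) (G2 (Sf o x)) (Sf o x) (x o) (hupos x)
      (husq x)]
    rfl
  constructor
  · intro x
    rw [hH x]
    refine FM_posDef o (qv o x) (hq x) (Sf o x) (hsum x) _ _ _ _ ?_ ?_ ?_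
    · exact div_pos (hpos1 _ (hS x)) (hupos x)
    · exact div_pos (hpos _ (hS x)) (pow_pos (hupos x) 3)
    · rw [hkey x]
      exact div_pos (hdetpos x) (pow_pos (hupos x) 4)
  · -- determinant
    have hdet : ∀ x : ι → ℝ, (hess (uf o G) x).det =
        (G1 (Sf o x) ^ (p - 1) * Bt G G1 G2 (Sf o x)) / uf o G x ^ (p + 3) := by
      intro x
      rw [hH x, FM_det o (qv o x) (hq x) (Sf o x) (hsum x) p hp hcard _ _ _ _
        (div_pos (hpos1 _ (hS x)) (hupos x)).ne', hkey x]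
      have hu := (hupos x).ne'
      rw [div_pow]
      have e : uf o G x ^ (p + 3) = uf o G x ^ (p - 1) * uf o G x ^ 4 := by
        rw [← pow_add]; congr 1; omega
      rw [e]
      field_simp
    have hw : affW (uf o G) = fun x => uf o G x ^ (p + 2) * ψ (Sf o x) := by
      funext x
      unfold affW
      rw [hdet x, hdef _ (hS x)]
      have hb : 0 < G1 (Sf o x) ^ (p - 1) * Bt G G1 G2 (Sf o x) :=
        mul_pos (pow_pos (hpos1 _ (hS x)) _) (hdetpos x)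
      have hc : ((Fintype.card ι : ℝ) + 1) / ((Fintype.card ι : ℝ) + 2) =
          ((p : ℝ) + 2) / ((p : ℝ) + 3) := by
        rw [hcard]
        push_cast
        ring
      rw [hc, Real.div_rpow hb.le (pow_nonneg (hupos x).le _), Real.rpow_neg
        (pow_nonneg (hupos x).le _), div_inv_eq_mul, ← Real.rpow_natCast (uf o G x) (p + 3),
        ← Real.rpow_mul (hupos x).le, mul_comm]
      congr 1
      rw [← Real.rpow_natCast (uf o G x) (p + 2)]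
      congr 1
      have h3 : (p : ℝ) + 3 ≠ 0 := by positivity
      push_cast
      field_simp
    intro x
    have hu := hupos x
    have hg := husq x
    have hg1 := hpos1 _ (hS x)
    have hBp := hdetpos x
    unfold affineMaximalOp
    rw [hw]
    have hW := hess_w o p G G1 G2 ψ ψ1 ψ2 hδ hG hG1 hψ hψ1 hpos x
    simp only at hW
    set u := uf o G x with hudef
    set s := Sf o x with hsdef
    set B := Bt G G1 G2 s with hBdef
    have hBd : B = G s * (G1 s + 2 * s * G2 s) - s * G1 s ^ 2 := rfl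
    obtain ⟨i0, i1, i2, i3, i4⟩ := alg_inv u (G s) (G1 s) (G2 s) s (x o) B hu hg hg1 hBp hBd
    have hinv : (hess (uf o G) x)⁻¹ = FM o (qv o x) (u / G1 s)
        (u * (G1 s ^ 2 - 2 * G s * G2 s) / (G1 s * B)) (u * G1 s * x o / B)
        (u * (1 + (G1 s + 2 * s * G2 s) * x o ^ 2 / B)) := by
      apply Matrix.inv_eq_right_inv
      rw [hH x]
      exact FM_mul_eq_one o (qv o x) (hq x) s (hsum x) _ _ _ _ _ _ _ _ i0 i1 i2 i3 i4
    rw [hinv]
    have hW' : ∀ i j, pd i (pd j fun x => uf o G x ^ (p + 2) * ψ (Sf o x)) x =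
        hess (fun x => uf o G x ^ (p + 2) * ψ (Sf o x)) x i j := fun i j => rfl
    have hT := FM_sum_mul o (qv o x) (hq x) s (hsum x) (u / G1 s)
        (u * (G1 s ^ 2 - 2 * G s * G2 s) / (G1 s * B)) (u * G1 s * x o / B)
        (u * (1 + (G1 s + 2 * s * G2 s) * x o ^ 2 / B))
        ((p + 2) * u ^ p * ψ s * G1 s + 2 * u ^ (p + 2) * ψ1 s)
        ((p + 1) * (p + 2) * u ^ p * ψ s * (G1 s ^ 2 / u ^ 2) +
          (p + 2) * u ^ p * ψ s * (2 * G2 s - G1 s ^ 2 / u ^ 2) +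
          4 * (p + 2) * u ^ p * ψ1 s * G1 s + 4 * u ^ (p + 2) * ψ2 s)
        ((p + 1) * (p + 2) * u ^ p * ψ s * (G1 s * x o / u ^ 2) -
          (p + 2) * u ^ p * ψ s * (G1 s * x o / u ^ 2) + 2 * (p + 2) * u ^ p * ψ1 s * x o)
        ((p + 1) * (p + 2) * u ^ p * ψ s * (x o ^ 2 / u ^ 2) +
          (p + 2) * u ^ p * ψ s * (G s / u ^ 2))
    have e2 : u ^ (p + 2) = u ^ p * u ^ 2 := pow_add _ _ _
    have hA := alg_trace p (u ^ p) u (G s) (G1 s) (G2 s) s (x o) B (ψ s) (ψ1 s) (ψ2 s) hu hg hg1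
      hBp hBd _ _ _ _ rfl rfl rfl rfl
    rw [hode s (hS x), mul_zero] at hA
    have hcard' : (Fintype.card ι : ℝ) - 1 = p := by rw [hcard]; push_cast; ring
    rw [hcard', e2, hA] at hT
    rw [e2] at hW
    have hfin : ∑ i, ∑ j, (hess (uf o G) x).det *
        FM o (qv o x) (u / G1 s) (u * (G1 s ^ 2 - 2 * G s * G2 s) / (G1 s * B))
          (u * G1 s * x o / B) (u * (1 + (G1 s + 2 * s * G2 s) * x o ^ 2 / B)) i j *
        pd i (pd j fun x => uf o G x ^ (p + 2) * ψ (Sf o x)) x =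
        (hess (uf o G) x).det * 0 := by
      rw [← hT, Finset.mul_sum]
      refine Finset.sum_congr rfl fun i _ => ?_
      rw [Finset.mul_sum]
      refine Finset.sum_congr rfl fun j _ => ?_
      rw [hW', hW, mul_assoc]
    rw [hfin, mul_zero]

end

end Vale.Agent.H6.AB
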