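import Mathlib

/-!
# P252: the affine maximal equation, definitions
-/

namespace Vale.Agent.H6.AB

section

variable {ι : Type*} [Fintype ι] [DecidableEq ι]

/-- The partial derivative `∂_i u` of a function on `ℝ^ι`. -/
noncomputable def pd (i : ι) (u : (ι → ℝ) → ℝ) (x : ι → ℝ) : ℝ :=
  fderiv ℝ u x (Pi.single i 1)

/-- The Hessian matrix `D²u (x) = (∂_i ∂_j u (x))`. -/
noncomputable def hess (u : (ι → ℝ) → ℝ) (x : ι → ℝ) : Matrix ι ι ℝ :=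
  fun i j => pd i (pd j u) x

/-- `w = (det D²u) ^ (-(n+1)/(n+2))`, `n` the dimension. -/
noncomputable def affW (u : (ι → ℝ) → ℝ) (x : ι → ℝ) : ℝ :=
  (hess u x).det ^ (-(((Fintype.card ι : ℝ) + 1) / ((Fintype.card ι : ℝ) + 2)))

/-- The affine maximal operator `∑_{i,j} U^{ij} ∂_{ij} w`, `U^{ij} = det(D²u) (D²u)⁻¹_{ij}`. -/
noncomputable def affineMaximalOp (u : (ι → ℝ) → ℝ) (x : ι → ℝ) : ℝ :=
  ∑ i, ∑ j, ((hess u x).det * (hess u x)⁻¹ i j) * pd i (pd j (affW u)) x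

/-- `u` is a quadratic polynomial. -/
def IsQuadratic (u : (ι → ℝ) → ℝ) : Prop :=
  ∃ (A : Matrix ι ι ℝ) (b : ι → ℝ) (c : ℝ),
    ∀ x, u x = (1 / 2) * ∑ i, ∑ j, A i j * x i * x j + ∑ i, b i * x i + c

end

end Vale.Agent.H6.AB
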