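import Vale.Agent.H6.AB.ADefs
import Vale.Agent.H6.AB.BDefs

/-!
# P252, row G
-/

namespace Vale.Agent.H6.AB

open MeasureTheory Set
open scoped ContDiff Topology

/-- derivative of `R` along the solution. -/
noncomputable def Rp (p s x z : ℝ) : ℝ :=
  -(p + 2) * ((x * (z - x) / 2 * (p + 1 + 2 * s * z + 2 * s * x) +
      x * ((Nf p s x z - p * z) + 2 * (x + s * (x * (z - x) / 2)))) * (2 * (p + 2 * s * x)) -
    x * (p + 1 + 2 * s * z + 2 * s * x) * (4 * (x + s * (x * (z - x) / 2)))) /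
      (2 * (p + 2 * s * x)) ^ 2

theorem rowG_nf (p s x z : ℝ) (h1 : p + 2 * s * x ≠ 0) :
    Nf p s x z - p * z =
      (1 + s * z) * (((2 * p + 3) * x - p ^ 2 * z + s * (6 * x * z + 2 * x ^ 2)) /
        (p + 2 * s * x)) := by
  unfold Nf
  obtain ⟨D, hD⟩ : ∃ D, D = p + 2 * s * x := ⟨_, rfl⟩
  obtain rfl : p = D - 2 * s * x := by rw [hD]; ring
  rw [← hD] at h1 ⊢
  clear hD
  field_simp
  ring

theorem rowG_log (p s x z : ℝ) (h1 : p + 2 * s * x ≠ 0) (h2 : 1 + s * z ≠ 0) :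
    (p - 1) * ((z + x) / 2) + ((z - x) / 2 + 2 * x + (Nf p s x z - p * z) / 2 / (1 + s * z)) =
      (p + 3) * x * (p + 1 + 2 * s * z + 2 * s * x) / (2 * (p + 2 * s * x)) := by
  have h3 : (Nf p s x z - p * z) / 2 / (1 + s * z) =
      ((2 * p + 3) * x - p ^ 2 * z + s * (6 * x * z + 2 * x ^ 2)) / (p + 2 * s * x) / 2 := by
    rw [rowG_nf p s x z h1]
    field_simp
  rw [h3]
  clear h3 h2
  obtain ⟨D, hD⟩ : ∃ D, D = p + 2 * s * x := ⟨_, rfl⟩
  obtain rfl : p = D - 2 * s * x := by rw [hD]; ring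
  rw [← hD] at h1 ⊢
  clear hD
  field_simp
  ring

theorem rowG_ode (p s x z : ℝ) (h1 : p + 2 * s * x ≠ 0) :
    4 * s * (Rp p s x z + Rf p s x z ^ 2) +
      (2 + 4 * (p + 2) * (s * x) + 2 * (p - 1) * (1 + s * z)) * Rf p s x z +
      (p + 1) * (p + 2) * (x + s * x * (z + x)) = 0 := by
  unfold Rp Rf
  rw [rowG_nf p s x z h1]
  obtain ⟨D, hD⟩ : ∃ D, D = p + 2 * s * x := ⟨_, rfl⟩
  obtain rfl : p = D - 2 * s * x := by rw [hD]; ring
  rw [← hD] at h1 ⊢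
  clear hD
  field_simp
  ring

theorem rowG_hasDerivAt_R (p : ℝ) {ξ ζ : ℝ → ℝ} {s dz : ℝ}
    (hξ : HasDerivAt ξ (ξ s * (ζ s - ξ s) / 2) s) (hζ : HasDerivAt ζ dz s)
    (hode : 2 * s * dz + (p + 2) * ζ s = Nf p s (ξ s) (ζ s)) (hp : p + 2 * s * ξ s ≠ 0) :
    HasDerivAt (fun t => Rf p t (ξ t) (ζ t)) (Rp p s (ξ s) (ζ s)) s := by
  have h1 : HasDerivAt (fun t : ℝ => 2 * t) 2 s := by
    simpa using (hasDerivAt_id s).const_mul (2 : ℝ)
  have hN : HasDerivAt (fun t => -((p + 2) * ξ t * (p + 1 + 2 * t * ζ t + 2 * t * ξ t)))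
      (-((p + 2) * (ξ s * (ζ s - ξ s) / 2) * (p + 1 + 2 * s * ζ s + 2 * s * ξ s) +
        (p + 2) * ξ s * ((2 * ζ s + 2 * s * dz) + (2 * ξ s + 2 * s * (ξ s * (ζ s - ξ s) / 2))))) s := by
    have h2 := (h1.mul hζ).const_add (p + 1)
    have h3 := h2.add (h1.mul hξ)
    exact ((hξ.const_mul (p + 2)).mul h3).neg
  have hD : HasDerivAt (fun t => 2 * (p + 2 * t * ξ t))
      (2 * (2 * ξ s + 2 * s * (ξ s * (ζ s - ξ s) / 2))) s :=
    ((h1.mul hξ).const_add p).const_mul 2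
  have hD0 : 2 * (p + 2 * s * ξ s) ≠ 0 := mul_ne_zero two_ne_zero hp
  have h4 := hN.div hD hD0
  have e : 2 * s * dz = Nf p s (ξ s) (ζ s) - (p + 2) * ζ s := by linarith
  refine h4.congr_deriv ?_
  unfold Rp
  rw [e]
  congr 1
  ring

/-- Row G: from `ξ, ζ` to `G, ψ` and the fourth order equation. -/
theorem exists_G (p : ℕ) (hp : 9 ≤ p) (δ : ℝ) (hδ : 0 < δ) (ξ ζ : ℝ → ℝ)
    (hξs : ContDiffOn ℝ ∞ ξ (Ioi (-δ))) (hζs : ContDiffOn ℝ ∞ ζ (Ioi (-δ)))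
    (hξ : ∀ s, -δ < s → HasDerivAt ξ (ξ s * (ζ s - ξ s) / 2) s)
    (hζ : ∀ s, -δ < s → 2 * s * deriv ζ s + (p + 2) * ζ s = Nf p s (ξ s) (ζ s))
    (hpos : ∀ s, -δ < s → 0 < ξ s ∧ 0 < 1 + s * ζ s ∧ 0 < p + 2 * s * ξ s) :
    ∃ G G1 G2 ψ ψ1 ψ2 : ℝ → ℝ, G 0 = 1 ∧ ContDiffOn ℝ ∞ G (Ioi (-δ)) ∧
      (∀ s, -δ < s → HasDerivAt G (G1 s) s) ∧ (∀ s, -δ < s → HasDerivAt G1 (G2 s) s) ∧
      (∀ s, -δ < s → HasDerivAt ψ (ψ1 s) s) ∧ (∀ s, -δ < s → HasDerivAt ψ1 (ψ2 s) s) ∧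
      (∀ s, -δ < s → 0 < G s) ∧ (∀ s, -δ < s → 0 < G1 s) ∧
      (∀ s, -δ < s → 0 < Bt G G1 G2 s) ∧
      (∀ s, -δ < s →
        ψ s = (G1 s ^ (p - 1) * Bt G G1 G2 s) ^ (-(((p : ℝ) + 2) / ((p : ℝ) + 3)))) ∧
      (∀ s, -δ < s → 4 * s * G s * ψ2 s +
        (2 * G s + 4 * (p + 2) * s * G1 s + 2 * (p - 1) * Bt G G1 G2 s / G1 s) * ψ1 s +
        (p + 1) * (p + 2) * (G1 s + 2 * s * G2 s) * ψ s = 0) := by
  have hopen : IsOpen (Ioi (-δ)) := isOpen_Ioi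
  have hξc : ContinuousOn ξ (Ioi (-δ)) := hξs.continuousOn
  have hζd : ∀ s, -δ < s → HasDerivAt ζ (deriv ζ s) s := fun s hs =>
    ((hζs.contDiffAt (hopen.mem_nhds hs)).differentiableAt (by simp)).hasDerivAt
  set F : ℝ → ℝ := fun s => ∫ t in (0 : ℝ)..s, ξ t with hF
  have hFd : ∀ s, -δ < s → HasDerivAt F (ξ s) s := by
    intro s hs
    have hsub : uIcc 0 s ⊆ Ioi (-δ) := by
      intro t ht
      rw [mem_uIcc] at ht
      rw [mem_Ioi]
      rcases ht with ht | ht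
      · linarith [ht.1]
      · linarith [ht.1]
    refine intervalIntegral.integral_hasDerivAt_right
      (hξc.mono hsub).intervalIntegrable ?_ (hξc.continuousAt (hopen.mem_nhds hs))
    exact hξc.stronglyMeasurableAtFilter hopen s hs
  set G : ℝ → ℝ := fun s => Real.exp (F s) with hG
  have hGpos : ∀ s, 0 < G s := fun s => Real.exp_pos _
  set G1 : ℝ → ℝ := fun s => G s * ξ s with hG1
  set G2 : ℝ → ℝ := fun s => G s * (ξ s * (ζ s + ξ s) / 2) with hG2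
  have hGd : ∀ s, -δ < s → HasDerivAt G (G1 s) s := fun s hs => (hFd s hs).exp
  have hG1d : ∀ s, -δ < s → HasDerivAt G1 (G2 s) s := by
    intro s hs
    refine ((hGd s hs).mul (hξ s hs)).congr_deriv ?_
    simp only [hG1, hG2]
    ring
  have hBt : ∀ s, Bt G G1 G2 s = G s ^ 2 * ξ s * (1 + s * ζ s) := by
    intro s
    simp only [Bt, hG1, hG2]
    ring
  set R : ℝ → ℝ := fun s => Rf p s (ξ s) (ζ s) with hR
  set R' : ℝ → ℝ := fun s => Rp p s (ξ s) (ζ s) with hR'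
  have hRd : ∀ s, -δ < s → HasDerivAt R (R' s) s := fun s hs =>
    rowG_hasDerivAt_R p (hξ s hs) (hζd s hs) (hζ s hs) (hpos s hs).2.2.ne'
  set c : ℝ := -(((p : ℝ) + 2) / ((p : ℝ) + 3)) with hc
  set W : ℝ → ℝ := fun s => G1 s ^ (p - 1) * Bt G G1 G2 s with hW
  have hG1pos : ∀ s, -δ < s → 0 < G1 s := fun s hs => mul_pos (hGpos s) (hpos s hs).1
  have hBtpos : ∀ s, -δ < s → 0 < Bt G G1 G2 s := by
    intro s hs
    rw [hBt]
    have h1 := hGpos s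
    have h2 := (hpos s hs).1
    have h3 := (hpos s hs).2.1
    positivity
  have hWpos : ∀ s, -δ < s → 0 < W s := fun s hs =>
    mul_pos (pow_pos (hG1pos s hs) _) (hBtpos s hs)
  have hp3 : (0 : ℝ) < (p : ℝ) + 3 := by positivity
  have hWd : ∀ s, -δ < s → HasDerivAt W (W s * (R s / c)) s := by
    intro s hs
    have hB : HasDerivAt (Bt G G1 G2) (Bt G G1 G2 s * ((ζ s - ξ s) / 2 + 2 * ξ s +
        (Nf p s (ξ s) (ζ s) - p * ζ s) / 2 / (1 + s * ζ s))) s := by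
      have e : Bt G G1 G2 = fun s => G s ^ 2 * ξ s * (1 + s * ζ s) := funext hBt
      have h1 := (((hGd s hs).pow 2).mul (hξ s hs)).mul
        (((hasDerivAt_id s).mul (hζd s hs)).const_add 1)
      rw [e]
      refine h1.congr_deriv ?_
      have h2 : (Nf p s (ξ s) (ζ s) - p * ζ s) / 2 = ζ s + s * deriv ζ s := by
        linarith [hζ s hs]
      have h3 := (hpos s hs).2.1.ne'
      rw [h2]
      simp only [hG1, id, Pi.mul_apply, Pi.pow_apply, Nat.cast_ofNat, Nat.add_one_sub_one, pow_one,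
        one_mul]
      have h4 : (1 + s * ζ s) * ((ζ s + s * deriv ζ s) / (1 + s * ζ s)) = ζ s + s * deriv ζ s := by
        field_simp
      calc _ = G s ^ 2 * ξ s * ((1 + s * ζ s) * ((ζ s - ξ s) / 2 + 2 * ξ s) +
            (ζ s + s * deriv ζ s)) := by ring
        _ = G s ^ 2 * ξ s * ((1 + s * ζ s) * ((ζ s - ξ s) / 2 + 2 * ξ s) +
            (1 + s * ζ s) * ((ζ s + s * deriv ζ s) / (1 + s * ζ s))) := by rw [h4]
        _ = _ := by ring
    have h1 := ((hG1d s hs).pow (p - 1)).mul hB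
    refine h1.congr_deriv ?_
    have hlog := rowG_log p s (ξ s) (ζ s) (hpos s hs).2.2.ne' (hpos s hs).2.1.ne'
    have hRc : R s / c = (p + 3) * ξ s * (p + 1 + 2 * s * ζ s + 2 * s * ξ s) /
        (2 * (p + 2 * s * ξ s)) := by
      simp only [hR, hc, Rf]
      have h5 := (hpos s hs).2.2.ne'
      have h6 : (p : ℝ) + 2 ≠ 0 := by positivity
      have h7 : (p : ℝ) + 3 ≠ 0 := hp3.ne'
      rw [div_neg, neg_div, neg_div, neg_neg, div_div_eq_mul_div, div_mul_eq_mul_div, div_div,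
        div_eq_div_iff (mul_ne_zero (mul_ne_zero two_ne_zero h5) h6) (mul_ne_zero two_ne_zero h5)]
      ring
    rw [hRc, ← hlog]
    have hp1 : p - 1 = (p - 2) + 1 := by omega
    have hcast : ((p - 1 : ℕ) : ℝ) = (p : ℝ) - 1 := by
      rw [Nat.cast_sub (by omega)]
      simp
    have hpow : G1 s ^ (p - 1 - 1) * G2 s = G1 s ^ (p - 1) * ((ζ s + ξ s) / 2) := by
      have : p - 1 - 1 = p - 2 := by omega
      rw [this, hp1, pow_succ]
      simp only [hG1, hG2]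
      ring
    simp only [hW, Pi.pow_apply]
    rw [hcast, mul_assoc ((p : ℝ) - 1), hpow]
    ring
  set ψ : ℝ → ℝ := fun s => W s ^ c with hψ
  have hψd : ∀ s, -δ < s → HasDerivAt ψ (R s * ψ s) s := by
    intro s hs
    have h1 := (hWd s hs).rpow_const (p := c) (Or.inl (hWpos s hs).ne')
    refine h1.congr_deriv ?_
    have hc0 : c ≠ 0 := by
      rw [hc]
      have : (0 : ℝ) < ((p : ℝ) + 2) / ((p : ℝ) + 3) := by positivity
      linarith
    simp only [hψ]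
    rw [Real.rpow_sub_one (hWpos s hs).ne']
    have := (hWpos s hs).ne'
    field_simp
  refine ⟨G, G1, G2, ψ, fun s => R s * ψ s, fun s => (R' s + R s ^ 2) * ψ s, ?_, ?_, hGd, hG1d,
    hψd, ?_, fun s _ => hGpos s, hG1pos, hBtpos, fun s _ => rfl, ?_⟩
  · simp [hG, hF]
  · have hFs : ContDiffOn ℝ ∞ F (Ioi (-δ)) := by
      rw [contDiffOn_infty_iff_deriv_of_isOpen hopen]
      refine ⟨fun s hs => (hFd s hs).differentiableAt.differentiableWithinAt, ?_⟩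
      exact hξs.congr fun s hs => (hFd s hs).deriv
    exact hFs.exp
  · intro s hs
    refine ((hRd s hs).mul (hψd s hs)).congr_deriv ?_
    ring
  · intro s hs
    have hode := rowG_ode p s (ξ s) (ζ s) (hpos s hs).2.2.ne'
    have hB1 : Bt G G1 G2 s / G1 s = G s * (1 + s * ζ s) := by
      rw [hBt]
      simp only [hG1]
      have h1 := (hGpos s).ne'
      have h2 := (hpos s hs).1.ne'
      field_simp
    have e1 : 2 * ((p : ℝ) - 1) * Bt G G1 G2 s / G1 s = 2 * ((p : ℝ) - 1) * (G s * (1 + s * ζ s)) := by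
      rw [mul_div_assoc, hB1]
    simp only [e1]
    have e2 : G1 s = G s * ξ s := rfl
    have e3 : G2 s = G s * (ξ s * (ζ s + ξ s) / 2) := rfl
    rw [e2, e3]
    have e4 : 4 * s * G s * ((R' s + R s ^ 2) * ψ s) +
        (2 * G s + 4 * ((p : ℝ) + 2) * s * (G s * ξ s) +
          2 * ((p : ℝ) - 1) * (G s * (1 + s * ζ s))) * (R s * ψ s) +
        ((p : ℝ) + 1) * ((p : ℝ) + 2) * (G s * ξ s + 2 * s * (G s * (ξ s * (ζ s + ξ s) / 2))) * ψ s =
        G s * ψ s * (4 * s * (R' s + R s ^ 2) +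
          (2 + 4 * ((p : ℝ) + 2) * (s * ξ s) + 2 * ((p : ℝ) - 1) * (1 + s * ζ s)) * R s +
          ((p : ℝ) + 1) * ((p : ℝ) + 2) * (ξ s + s * ξ s * (ζ s + ξ s))) := by
      ring
    rw [e4]
    have e5 : 4 * s * (R' s + R s ^ 2) +
          (2 + 4 * ((p : ℝ) + 2) * (s * ξ s) + 2 * ((p : ℝ) - 1) * (1 + s * ζ s)) * R s +
          ((p : ℝ) + 1) * ((p : ℝ) + 2) * (ξ s + s * ξ s * (ζ s + ξ s)) = 0 := hode
    rw [e5, mul_zero]

end Vale.Agent.H6.AB
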