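import Vale.Agent.H6.AB.BDefs

namespace Vale.Agent.H6.AB

open Matrix

section

variable {ι : Type*} [Fintype ι] [DecidableEq ι]

theorem sum_ev_mul (o : ι) (f : ι → ℝ) : ∑ i, ev o i * f i = f o := by
  simp [ev]

theorem sum_mul_ev (o : ι) (f : ι → ℝ) : ∑ i, f i * ev o i = f o := by
  simp [ev]

/-- entry of the product -/
theorem FM_mul_entry (o : ι) (q : ι → ℝ) (hq : q o = 0) (s : ℝ) (hs : ∑ i, q i ^ 2 = s)
    (a α β γ a' α' β' γ' : ℝ) (i j : ι) :
    ∑ k, FM o q a α β γ i k * FM o q a' α' β' γ' k j =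
      (a * a') * ((if i = j then 1 else 0) - ev o i * ev o j) +
      (a * α' + α * a' + α * α' * s + β * β') * (q i * q j) +
      (a * β' + α * β' * s + β * γ') * (q i * ev o j) +
      (β * a' + β * α' * s + γ * β') * (ev o i * q j) +
      (β * β' * s + γ * γ') * (ev o i * ev o j) := by
  have hδ : ∀ k, (if i = k then (1 : ℝ) else 0) * (if k = j then 1 else 0) =
      if i = k then (if i = j then 1 else 0) else 0 := by
    intro k
    by_cases h : i = k
    · subst h; simp
    · simp [h]
  -- expand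
  have hexp : ∀ k, FM o q a α β γ i k * FM o q a' α' β' γ' k j =
      (if i = k then 1 else 0) * ((if k = j then 1 else 0) * (a * a')) +
      (if i = k then 1 else 0) * (a * (-(a' * (ev o k * ev o j)) + α' * (q k * q j) +
        β' * (q k * ev o j + ev o k * q j) + γ' * (ev o k * ev o j))) +
      (if k = j then 1 else 0) * (a' * (-(a * (ev o i * ev o k)) + α * (q i * q k) +
        β * (q i * ev o k + ev o i * q k) + γ * (ev o i * ev o k))) +
      (q k ^ 2) * ((α * q i + β * ev o i) * (α' * q j + β' * ev o j)) +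
      (q k * ev o k) * ((α * q i + β * ev o i) * (β' * q j + (γ' - a') * ev o j) +
        (β * q i + (γ - a) * ev o i) * (α' * q j + β' * ev o j)) +
      (ev o k * ev o k) * ((β * q i + (γ - a) * ev o i) * (β' * q j + (γ' - a') * ev o j)) := by
    intro k
    unfold FM
    ring
  rw [Finset.sum_congr rfl fun k _ => hexp k]
  simp only [Finset.sum_add_distrib]
  rw [← Finset.sum_mul, ← Finset.sum_mul, ← Finset.sum_mul]
  have e1 : ∑ k, ev o k * ev o k = 1 := by rw [sum_ev_mul]; simp [ev]
  have e2 : ∑ k, q k * ev o k = 0 := by rw [sum_mul_ev]; exact hq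
  rw [hs, e1, e2]
  simp only [ite_mul, one_mul, zero_mul, Finset.sum_ite_eq, Finset.sum_ite_eq', Finset.mem_univ,
    if_true]
  have hqe : ∀ i, q i * ev o i = 0 := by
    intro i
    unfold ev
    split_ifs with h
    · rw [h, hq]; ring
    · ring
  have hee : ∀ i, ev o i * ev o i = ev o i := by
    intro i
    unfold ev
    split_ifs <;> ring
  by_cases hij : i = j
  · subst hij
    simp only [if_true]
    ring
  · simp only [if_neg hij]
    ring

/-- Row M1: product, as used for the inverse. -/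
theorem FM_mul_eq_one (o : ι) (q : ι → ℝ) (hq : q o = 0) (s : ℝ) (hs : ∑ i, q i ^ 2 = s)
    (a α β γ a' α' β' γ' : ℝ) (h0 : a * a' = 1)
    (h1 : a * α' + α * a' + α * α' * s + β * β' = 0)
    (h2 : a * β' + α * β' * s + β * γ' = 0)
    (h3 : β * a' + β * α' * s + γ * β' = 0)
    (h4 : β * β' * s + γ * γ' = 1) :
    FM o q a α β γ * FM o q a' α' β' γ' = 1 := by
  ext i j
  rw [Matrix.mul_apply, FM_mul_entry o q hq s hs, h0, h1, h2, h3, h4, Matrix.one_apply]
  ring

/-- Row M1: trace of the product. -/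
theorem FM_sum_mul (o : ι) (q : ι → ℝ) (hq : q o = 0) (s : ℝ) (hs : ∑ i, q i ^ 2 = s)
    (a α β γ a' α' β' γ' : ℝ) :
    ∑ i, ∑ j, FM o q a α β γ i j * FM o q a' α' β' γ' i j =
      ((Fintype.card ι : ℝ) - 1) * (a * a') +
        s * (a * α' + α * a' + α * α' * s + β * β') + (β * β' * s + γ * γ') := by
  have hsymm : ∀ i j, FM o q a' α' β' γ' i j = FM o q a' α' β' γ' j i := by
    intro i j
    unfold FM
    by_cases hij : i = j
    · subst hij; ring
    · rw [if_neg hij, if_neg (Ne.symm hij)]; ring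
  have h : ∀ i, ∑ j, FM o q a α β γ i j * FM o q a' α' β' γ' i j =
      (a * a') * (1 - ev o i * ev o i) +
      (a * α' + α * a' + α * α' * s + β * β') * (q i ^ 2) +
      (a * β' + α * β' * s + β * γ') * (q i * ev o i) +
      (β * a' + β * α' * s + γ * β') * (q i * ev o i) +
      (β * β' * s + γ * γ') * (ev o i * ev o i) := by
    intro i
    rw [Finset.sum_congr rfl fun j _ => by rw [hsymm i j], FM_mul_entry o q hq s hs, if_pos rfl]
    ring
  rw [Finset.sum_congr rfl fun i _ => h i]
  simp only [Finset.sum_add_distrib, ← Finset.mul_sum, Finset.sum_sub_distrib]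
  have e1 : ∑ k, ev o k * ev o k = 1 := by rw [sum_ev_mul]; simp [ev]
  have e2 : ∑ k, q k * ev o k = 0 := by rw [sum_mul_ev]; exact hq
  rw [hs, e1, e2]
  simp only [Finset.sum_const, Finset.card_univ, nsmul_eq_mul, mul_one]
  ring

end

end Vale.Agent.H6.AB
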