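import Vale.Agent.H6.AB.BDefs

namespace Vale.Agent.H6.AB

section

variable {ι : Type*} [Fintype ι] [DecidableEq ι]

/-- Row Q: not quadratic. -/
theorem uf_not_quadratic (o : ι) (G : ℝ → ℝ) (hG : G 0 = 1) : ¬ IsQuadratic (uf o G) := by
  rintro ⟨A, b, c, h⟩
  have hx : ∀ t : ℝ, uf o G (fun i => t * ev o i) = Real.sqrt (1 + t ^ 2) := by
    intro t
    unfold uf
    have hS : Sf o (fun i => t * ev o i) = 0 := by
      unfold Sf
      refine Finset.sum_eq_zero fun i _ => ?_
      by_cases hi : i = o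
      · simp [qv, hi]
      · simp [qv, ev, hi]
    rw [hS, hG]
    simp [ev]
  have hpoly : ∀ t : ℝ, Real.sqrt (1 + t ^ 2) = (1 / 2 * A o o) * t ^ 2 + b o * t + c := by
    intro t
    rw [← hx t, h]
    have e1 : ∑ i, ∑ j, A i j * (t * ev o i) * (t * ev o j) = A o o * t ^ 2 := by
      rw [Finset.sum_eq_single o]
      · rw [Finset.sum_eq_single o]
        · simp [ev]; ring
        · intro j _ hj
          simp [ev, hj]
        · simp
      · intro i _ hi
        refine Finset.sum_eq_zero fun j _ => ?_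
        simp [ev, hi]
      · simp
    have e2 : ∑ i, b i * (t * ev o i) = b o * t := by
      rw [Finset.sum_eq_single o]
      · simp [ev]
      · intro j _ hj
        simp [ev, hj]
      · simp
    rw [e1, e2]
    ring
  set a := 1 / 2 * A o o with ha
  have hsq : ∀ t : ℝ, (a * t ^ 2 + b o * t + c) ^ 2 = 1 + t ^ 2 := by
    intro t
    rw [← hpoly t, Real.sq_sqrt (by positivity)]
  have h0 := hpoly 0
  have hc : c = 1 := by
    simp at h0
    exact h0.symm
  subst hc
  have h1 := hsq 1
  have h2 := hsq (-1)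
  have h3 := hsq 2
  have h4 := hsq (-2)
  norm_num at h1 h2 h3 h4
  -- (a + b + 1)^2 = 2, (a - b + 1)^2 = 2, (4a+2b+1)^2 = 5, (4a-2b+1)^2 = 5
  have e1 : (a + 1) * b o = 0 := by nlinarith
  have e2 : (4 * a + 1) * b o = 0 := by nlinarith
  have hb : b o = 0 := by nlinarith
  rw [hb] at h1 h3
  nlinarith [sq_nonneg a]

end

end Vale.Agent.H6.AB
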