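import Vale.Agent.H6.AB.ADefs

namespace Vale.Agent.H6.AB

open MeasureTheory Set

/-- Row T0. -/
theorem T_zero (p : ℕ) (f : ℝ → ℝ) : T p f 0 = f 0 / (p + 2) := by
  unfold T
  have : ∀ σ : ℝ, σ ^ (p + 1) * f (0 * σ ^ 2) = σ ^ (p + 1) * f 0 := fun σ => by rw [zero_mul]
  simp only [this]
  rw [intervalIntegral.integral_mul_const, integral_pow]
  push_cast
  simp
  ring

/-- Row T0. -/
theorem T_continuous (p : ℕ) {f : ℝ → ℝ} (hf : Continuous f) : Continuous (T p f) := by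
  unfold T
  apply intervalIntegral.continuous_parametric_intervalIntegral_of_continuous'
  fun_prop

/-- primitive form for `r > 0` -/
theorem T_sq (p : ℕ) {f : ℝ → ℝ} {r : ℝ} (hr : 0 < r) :
    T p f (r ^ 2) = (∫ ρ in (0 : ℝ)..r, ρ ^ (p + 1) * f (ρ ^ 2)) / r ^ (p + 2) := by
  have h := intervalIntegral.integral_comp_mul_left (a := 0) (b := 1)
    (fun ρ => ρ ^ (p + 1) * f (ρ ^ 2)) hr.ne'
  rw [mul_zero, mul_one] at h
  rw [eq_div_iff (pow_pos hr _).ne', pow_succ r (p + 1), ← mul_assoc]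
  have h2 : (∫ ρ in (0 : ℝ)..r, ρ ^ (p + 1) * f (ρ ^ 2)) =
      r * ∫ x in (0 : ℝ)..1, (r * x) ^ (p + 1) * f ((r * x) ^ 2) := by
    rw [h, smul_eq_mul, ← mul_assoc, mul_inv_cancel₀ hr.ne', one_mul]
  rw [h2, mul_comm _ r]
  congr 1
  unfold T
  rw [← intervalIntegral.integral_mul_const]
  refine intervalIntegral.integral_congr fun x _ => ?_
  show x ^ (p + 1) * f (r ^ 2 * x ^ 2) * r ^ (p + 1) = (r * x) ^ (p + 1) * f ((r * x) ^ 2)
  rw [mul_pow, mul_pow]
  ring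

theorem T_hasDerivAt_pos (p : ℕ) {f : ℝ → ℝ} (hf : Continuous f) {s : ℝ} (hs : 0 < s) :
    HasDerivAt (T p f) ((f s - (p + 2) * T p f s) / (2 * s)) s := by
  set r := Real.sqrt s with hr
  have hrpos : 0 < r := Real.sqrt_pos.2 hs
  have hr2 : r ^ 2 = s := Real.sq_sqrt hs.le
  -- derivative of the r-function
  have hF : HasDerivAt (fun r => ∫ ρ in (0 : ℝ)..r, ρ ^ (p + 1) * f (ρ ^ 2))
      (r ^ (p + 1) * f (r ^ 2)) r := by
    have hc : Continuous fun ρ : ℝ => ρ ^ (p + 1) * f (ρ ^ 2) := by fun_prop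
    exact intervalIntegral.integral_hasDerivAt_right (hc.intervalIntegrable _ _)
      (hc.stronglyMeasurableAtFilter _ _) hc.continuousAt
  have hg : HasDerivAt (fun r => (∫ ρ in (0 : ℝ)..r, ρ ^ (p + 1) * f (ρ ^ 2)) / r ^ (p + 2))
      (((r ^ (p + 1) * f (r ^ 2)) * r ^ (p + 2) -
        (∫ ρ in (0 : ℝ)..r, ρ ^ (p + 1) * f (ρ ^ 2)) * (((p + 2 : ℕ) : ℝ) * r ^ (p + 2 - 1))) /
        (r ^ (p + 2)) ^ 2) r :=
    hF.div (hasDerivAt_pow (p + 2) r) (pow_pos hrpos _).ne'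
  have hsqrt : HasDerivAt Real.sqrt (1 / (2 * Real.sqrt s)) s := Real.hasDerivAt_sqrt hs.ne'
  have hcomp := HasDerivAt.comp s (h₂ := fun r => (∫ ρ in (0 : ℝ)..r, ρ ^ (p + 1) * f (ρ ^ 2)) /
    r ^ (p + 2)) (h := Real.sqrt) hg hsqrt
  have heq : T p f =ᶠ[nhds s] (fun r => (∫ ρ in (0 : ℝ)..r, ρ ^ (p + 1) * f (ρ ^ 2)) /
      r ^ (p + 2)) ∘ Real.sqrt := by
    filter_upwards [Ioi_mem_nhds hs] with t ht
    have ht' : 0 < t := ht
    have := T_sq p (f := f) (Real.sqrt_pos.2 ht')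
    rw [Real.sq_sqrt ht'.le] at this
    exact this
  refine (hcomp.congr_of_eventuallyEq heq).congr_deriv ?_
  have hTs : T p f s = (∫ ρ in (0 : ℝ)..r, ρ ^ (p + 1) * f (ρ ^ 2)) / r ^ (p + 2) := by
    rw [← hr2]; exact T_sq p hrpos
  rw [hTs, ← hr, hr2]
  set I := ∫ ρ in (0 : ℝ)..r, ρ ^ (p + 1) * f (ρ ^ 2)
  have hr0 : r ≠ 0 := hrpos.ne'
  rw [← hr2]
  rw [show p + 2 - 1 = p + 1 by omega]
  push_cast
  field_simp
  ring

theorem T_neg (p : ℕ) (f : ℝ → ℝ) (s : ℝ) : T p f s = T p (fun t => f (-t)) (-s) := by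
  unfold T
  refine intervalIntegral.integral_congr fun x _ => ?_
  simp

/-- Row T0. `T p f` solves `2 s g' + (p+2) g = f` away from the origin. -/
theorem T_hasDerivAt (p : ℕ) {f : ℝ → ℝ} (hf : Continuous f) {s : ℝ} (hs : s ≠ 0) :
    HasDerivAt (T p f) ((f s - (p + 2) * T p f s) / (2 * s)) s := by
  rcases lt_or_gt_of_ne hs with h | h
  · have hf' : Continuous fun t => f (-t) := by fun_prop
    have h1 := T_hasDerivAt_pos p hf' (s := -s) (by linarith)
    have h2 : HasDerivAt (fun t : ℝ => -t) (-1) s := (hasDerivAt_id s).neg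
    have h3 := HasDerivAt.comp s (h₂ := T p fun t => f (-t)) (h := fun t : ℝ => -t) h1 h2
    have heq : T p f = (T p fun t => f (-t)) ∘ fun t : ℝ => -t := by
      funext t
      exact T_neg p f t
    rw [heq]
    refine h3.congr_deriv ?_
    simp only [Function.comp, neg_neg]
    field_simp
  · exact T_hasDerivAt_pos p hf h

/-- Row T0 (gain of one derivative), local version on `(-δ, ∞)`. -/
theorem sT_hasDerivAt (p : ℕ) {h : ℝ → ℝ} (hh : Continuous h) (s : ℝ) :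
    HasDerivAt (fun s => s * T (p + 2) h s) (h s / 2 - (p + 2) / 2 * T (p + 2) h s) s := by
  by_cases hs : s = 0
  · subst hs
    rw [T_zero]
    rw [hasDerivAt_iff_tendsto_slope]
    have hc : ContinuousAt (T (p + 2) h) 0 := (T_continuous (p + 2) hh).continuousAt
    have hlim : Filter.Tendsto (T (p + 2) h) (nhdsWithin 0 {0}ᶜ) (nhds (T (p + 2) h 0)) :=
      hc.tendsto.mono_left nhdsWithin_le_nhds
    have hval : h 0 / 2 - ((p : ℝ) + 2) / 2 * (h 0 / ((p + 2 : ℕ) + 2)) = T (p + 2) h 0 := by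
      rw [T_zero]
      push_cast
      have : (p : ℝ) + 2 + 2 ≠ 0 := by positivity
      field_simp
      ring
    rw [hval]
    refine hlim.congr' ?_
    filter_upwards [self_mem_nhdsWithin] with t ht
    have ht' : t ≠ 0 := ht
    rw [slope_def_field]
    field_simp
    ring
  · have h1 := (hasDerivAt_id s).mul (T_hasDerivAt (p + 2) hh hs)
    refine h1.congr_deriv ?_
    simp only [id]
    push_cast
    field_simp
    ring

end Vale.Agent.H6.AB
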